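import Vale.Agent.Lib.P034.Cover

/-!
Invariant weights on forests: averaging over isomorphism classes.
-/

namespace Vale.Agent.Lib.P034

open Finset SimpleGraph Vale.Agent.Lib.P064
open scoped Nat Classical

set_option linter.unusedSectionVars false
set_option linter.unusedVariables false

variable {n : ℕ}

/-- The isomorphism class of a graph on `Fin n`. -/
noncomputable def cls (S : SimpleGraph (Fin n)) : Finset (SimpleGraph (Fin n)) :=
  Finset.univ.filter (fun T => Nonempty (T ≃g S))

lemma mem_cls {S T : SimpleGraph (Fin n)} : T ∈ cls S ↔ Nonempty (T ≃g S) := by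
  simp [cls]

lemma cls_eq {S T : SimpleGraph (Fin n)} (h : T ∈ cls S) : cls T = cls S := by
  obtain ⟨i⟩ := mem_cls.mp h
  ext U
  rw [mem_cls, mem_cls]
  constructor
  · rintro ⟨j⟩
    exact ⟨j.trans i⟩
  · rintro ⟨j⟩
    exact ⟨j.trans i.symm⟩

lemma mem_cls_symm {S T : SimpleGraph (Fin n)} : T ∈ cls S ↔ S ∈ cls T := by
  rw [mem_cls, mem_cls]
  exact ⟨fun ⟨i⟩ => ⟨i.symm⟩, fun ⟨i⟩ => ⟨i.symm⟩⟩

lemma self_mem_cls (S : SimpleGraph (Fin n)) : S ∈ cls S := mem_cls.mpr ⟨SimpleGraph.Iso.refl⟩

/-- The averaging identity over isomorphism classes. -/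
lemma sum_eq_avg (f : SimpleGraph (Fin n) → ℝ) :
    ∑ T, f T = ∑ S, (1 / ((cls S).card : ℝ)) * ∑ T ∈ cls S, f T := by
  have h1 : ∀ S, (1 / ((cls S).card : ℝ)) * ∑ T ∈ cls S, f T
      = ∑ T, if S ∈ cls T then (1 / ((cls T).card : ℝ)) * f T else 0 := by
    intro S
    rw [Finset.mul_sum]
    have h2 : ∑ T ∈ cls S, (1 / ((cls S).card : ℝ)) * f T
        = ∑ T ∈ cls S, (1 / ((cls T).card : ℝ)) * f T :=
      Finset.sum_congr rfl fun T hT => by rw [cls_eq hT]
    rw [h2, ← Finset.sum_filter]
    refine Finset.sum_congr ?_ fun _ _ => rfl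
    ext T
    simp only [Finset.mem_filter, Finset.mem_univ, true_and]
    exact mem_cls_symm
  rw [Finset.sum_congr rfl (fun S _ => h1 S), Finset.sum_comm]
  refine Finset.sum_congr rfl fun T _ => ?_
  rw [← Finset.sum_filter, Finset.sum_const, nsmul_eq_mul]
  have h3 : (Finset.univ.filter (fun S => S ∈ cls T)) = cls T := by
    ext S
    simp
  rw [h3]
  have h4 : (0 : ℝ) < (cls T).card := by
    exact_mod_cast Finset.card_pos.mpr ⟨T, self_mem_cls T⟩
  field_simp

/-- The spanning subgraphs of `H` isomorphic to `S` are counted by `copyCount`. -/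
lemma card_cls_le_copyCount (H S : SimpleGraph (Fin n)) :
    ((cls S).filter (fun T => T ≤ H)).card ≤ H.copyCount S := by
  unfold SimpleGraph.copyCount
  refine Finset.card_le_card_of_injOn
    (fun T : SimpleGraph (Fin n) =>
      if h : T ≤ H then SimpleGraph.toSubgraph T h else (⊥ : H.Subgraph)) ?_ ?_
  · intro T hT
    have hT' : T ∈ (cls S).filter (fun T => T ≤ H) := by simpa using hT
    rcases Finset.mem_filter.mp hT' with ⟨h1, h2⟩
    obtain ⟨i⟩ := mem_cls.mp h1
    have hmem : ∀ x : Fin n, x ∈ (SimpleGraph.toSubgraph T h2).verts := fun x => Set.mem_univ x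
    have hiso : Nonempty (S ≃g (SimpleGraph.toSubgraph T h2).coe) := by
      refine ⟨RelIso.trans i.symm ?_⟩
      exact
        { toEquiv := (Equiv.subtypeUnivEquiv hmem).symm
          map_rel_iff' := by
            intro a b
            rfl }
    simp only [dif_pos h2]
    simpa using hiso
  · intro T hT T' hT' h
    have h1 : T ≤ H := by
      have : T ∈ (cls S).filter (fun T => T ≤ H) := by simpa using hT
      exact (Finset.mem_filter.mp this).2
    have h2 : T' ≤ H := by
      have : T' ∈ (cls S).filter (fun T => T ≤ H) := by simpa using hT'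
      exact (Finset.mem_filter.mp this).2
    simp only [dif_pos h1, dif_pos h2] at h
    ext a b
    have h3 : (SimpleGraph.toSubgraph T h1).Adj a b ↔ (SimpleGraph.toSubgraph T' h2).Adj a b := by
      rw [h]
    exact h3

/-- An embedded copy of a graph on `Fin n` is spanning. -/
lemma verts_eq_univ {S : SimpleGraph (Fin n)} {G' : (⊤ : SimpleGraph (Fin n)).Subgraph}
    (i : S ≃g G'.coe) (x : Fin n) : x ∈ G'.verts := by
  have h1 : Function.Surjective (fun z : Fin n => ((i z : G'.verts) : Fin n)) := by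
    have hinj : Function.Injective (fun z : Fin n => ((i z : G'.verts) : Fin n)) :=
      fun a b h => i.injective (Subtype.ext h)
    exact Finite.injective_iff_surjective.mp hinj
  obtain ⟨z, rfl⟩ := h1 x
  exact (i z).property

/-- The copies of `S` in the complete graph are the members of the class of `S`. -/
lemma copyCount_top_le_cls (S : SimpleGraph (Fin n)) :
    (⊤ : SimpleGraph (Fin n)).copyCount S ≤ (cls S).card := by
  unfold SimpleGraph.copyCount
  refine Finset.card_le_card_of_injOn (fun G' => G'.spanningCoe) ?_ ?_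
  · intro G' hG'
    have hG : Nonempty (S ≃g G'.coe) := by simpa using hG'
    obtain ⟨i⟩ := hG
    have huniv : ∀ x : Fin n, x ∈ G'.verts := verts_eq_univ i
    have hiso : Nonempty (G'.spanningCoe ≃g S) := by
      refine ⟨RelIso.trans ?_ i.symm⟩
      exact
        { toEquiv := (Equiv.subtypeUnivEquiv huniv).symm
          map_rel_iff' := by
            intro a b
            rfl }
    exact Finset.mem_coe.mpr (mem_cls.mpr hiso)
  · intro G₁ h₁ G₂ h₂ h
    have hG₁ : Nonempty (S ≃g G₁.coe) := by simpa using h₁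
    have hG₂ : Nonempty (S ≃g G₂.coe) := by simpa using h₂
    obtain ⟨i₁⟩ := hG₁
    obtain ⟨i₂⟩ := hG₂
    refine SimpleGraph.Subgraph.ext ?_ ?_
    · ext x
      exact ⟨fun _ => verts_eq_univ i₂ x, fun _ => verts_eq_univ i₁ x⟩
    · funext a b
      apply propext
      have h3 : G₁.spanningCoe.Adj a b ↔ G₂.spanningCoe.Adj a b := by
        have h4 : G₁.spanningCoe = G₂.spanningCoe := h
        rw [h4]
      exact h3

/-- The main inequality for invariant weights on forests in a graph with no heavy subgraph. -/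
theorem sum_le_of_OBound {H : SimpleGraph (Fin n)} (hn : 0 < n) {p : ℝ} (hp : 0 < p) (hp1 : p ≤ 1)
    (hH : OBound H n (p / constL'))
    {g : SimpleGraph (Fin n) → ℝ} (hg0 : ∀ S, 0 ≤ g S) (hgf : ∀ S, g S ≠ 0 → S.IsAcyclic)
    (hginv : ∀ S T, Nonempty (S ≃g T) → g S = g T) :
    ∑ S ∈ Finset.univ.filter (fun S => S ≤ H), g S ≤ ∑ S, g S * p ^ numEdges S := by
  have hL : 0 < constL' := by
    unfold constL'
    linarith [constK_pos]
  have hq : 0 < p / constL' := by positivity
  have hLq : constL' * (p / constL') = p := by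
    field_simp
  rw [Finset.sum_filter, sum_eq_avg]
  refine Finset.sum_le_sum fun S _ => ?_
  have hcpos : (0 : ℝ) < (cls S).card := by
    exact_mod_cast Finset.card_pos.mpr ⟨S, self_mem_cls S⟩
  have h1 : ∑ T ∈ cls S, (if T ≤ H then g T else 0) = g S * ((cls S).filter (fun T => T ≤ H)).card := by
    rw [← Finset.sum_filter]
    rw [Finset.sum_congr rfl (g := fun _ => g S) (fun T hT => by
      obtain ⟨i⟩ := mem_cls.mp (Finset.mem_filter.mp hT).1
      exact hginv T S ⟨i⟩)]
    rw [Finset.sum_const, nsmul_eq_mul]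
    ring
  rw [h1]
  by_cases hgS : g S = 0
  · rw [hgS]
    simp
  · have hS := hgf S hgS
    have hV : Fintype.card (Fin n) ≤ n := by simp
    have h2 := copyCount_le_expCopies_general hn hV hq hH S hS
    rw [hLq, min_eq_right hp1] at h2
    unfold expCopies at h2
    have h3 : (((cls S).filter (fun T => T ≤ H)).card : ℝ) ≤ (H.copyCount S : ℝ) := by
      exact_mod_cast card_cls_le_copyCount H S
    have h4 : ((⊤ : SimpleGraph (Fin n)).copyCount S : ℝ) ≤ ((cls S).card : ℝ) := by
      exact_mod_cast copyCount_top_le_cls S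
    have h5 : (((cls S).filter (fun T => T ≤ H)).card : ℝ) ≤ ((cls S).card : ℝ) * p ^ numEdges S :=
      (h3.trans h2).trans (mul_le_mul_of_nonneg_right h4 (by positivity))
    calc 1 / ((cls S).card : ℝ) * (g S * (((cls S).filter (fun T => T ≤ H)).card : ℝ))
        ≤ 1 / ((cls S).card : ℝ) * (g S * (((cls S).card : ℝ) * p ^ numEdges S)) := by
          refine mul_le_mul_of_nonneg_left ?_ (by positivity)
          exact mul_le_mul_of_nonneg_left h5 (hg0 S)
      _ = g S * p ^ numEdges S := by
          field_simp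

/-- The covering theorem. -/
theorem cover_of_invariant_forest_weights (hn : 0 < n) {p : ℝ} (hp : 0 < p) (hp1 : p ≤ 1)
    {g : SimpleGraph (Fin n) → ℝ} (hg0 : ∀ S, 0 ≤ g S) (hgf : ∀ S, g S ≠ 0 → S.IsAcyclic)
    (hginv : ∀ S T, Nonempty (S ≃g T) → g S = g T)
    {𝓕 : Set (SimpleGraph (Fin n))}
    (hF : ∀ H ∈ 𝓕, 1 ≤ ∑ S ∈ Finset.univ.filter (fun S => S ≤ H), g S)
    (hcost : ∑ S, g S * p ^ numEdges S ≤ 1 / 2) :
    ∃ 𝓖 : Finset (SimpleGraph (Fin n)), (∀ H ∈ 𝓕, ∃ S ∈ 𝓖, S ≤ H) ∧
      ∑ S ∈ 𝓖, (p / (8 * constL')) ^ numEdges S ≤ 1 / 2 := by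
  have hL : 0 < constL' := by
    unfold constL'
    linarith [constK_pos]
  have hq : 0 < p / constL' := by positivity
  refine ⟨coverOf n (p / constL'), ?_, ?_⟩
  · intro H hH
    refine exists_cover hq fun hOB => ?_
    have h1 := sum_le_of_OBound hn hp hp1 hOB hg0 hgf hginv
    have h2 := hF H hH
    linarith
  · have h1 := cost_cover hn hq
    have h2 : p / constL' / 8 = p / (8 * constL') := by
      field_simp
    rwa [h2] at h1

end Vale.Agent.Lib.P034
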