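import Vale.Agent.Lib.P064.Gen9

/-!
The cover by heavy oriented graphs.
-/

namespace Vale.Agent.Lib.P034

open Finset SimpleGraph Vale.Agent.Lib.P064
open scoped Nat Classical

set_option linter.unusedSectionVars false
set_option linter.unusedVariables false

variable {n : ℕ}

/-- The value of the bound for `v` vertices and `e` edges. -/
noncomputable def Bd (n v e : ℕ) (q : ℝ) : ℝ :=
  (6 * (n : ℝ) / (v : ℝ)) ^ v * (2 * (v : ℝ)) ^ e * q ^ e

/-- One step of monotonicity in the number of vertices. -/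
lemma six_step (v : ℕ) (hv : 1 ≤ v) (hvn : v + 1 ≤ n) :
    (6 * (n : ℝ) / (v : ℝ)) ^ v ≤ (6 * (n : ℝ) / ((v + 1 : ℕ) : ℝ)) ^ (v + 1) := by
  have hv' : (0 : ℝ) < v := by exact_mod_cast hv
  have hv1 : (0 : ℝ) < ((v + 1 : ℕ) : ℝ) := by positivity
  have hn' : ((v + 1 : ℕ) : ℝ) ≤ n := by exact_mod_cast hvn
  have hnpos : (0 : ℝ) < n := lt_of_lt_of_le hv1 hn'
  -- `(1 + 1/v)^v ≤ 3`
  have h1 : (((v + 1 : ℕ) : ℝ) / v) ^ v ≤ 3 := by
    have h2 : ((v + 1 : ℕ) : ℝ) / v ≤ Real.exp (1 / v) := by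
      have h3 := Real.add_one_le_exp (1 / (v : ℝ))
      have h4 : ((v + 1 : ℕ) : ℝ) / v = 1 / v + 1 := by
        push_cast
        field_simp
        ring
      rw [h4]
      exact h3
    have h5 : Real.exp (1 / (v : ℝ)) ^ v = Real.exp 1 := by
      rw [← Real.exp_nat_mul]
      congr 1
      field_simp
    calc (((v + 1 : ℕ) : ℝ) / v) ^ v ≤ Real.exp (1 / (v : ℝ)) ^ v :=
          pow_le_pow_left₀ (by positivity) h2 v
      _ = Real.exp 1 := h5
      _ ≤ 3 := Real.exp_one_lt_three.le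
  have h6 : (3 : ℝ) ≤ 6 * (n : ℝ) / ((v + 1 : ℕ) : ℝ) := by
    rw [le_div_iff₀ hv1]
    nlinarith
  have h7 : 6 * (n : ℝ) / (v : ℝ) = (6 * (n : ℝ) / ((v + 1 : ℕ) : ℝ)) * (((v + 1 : ℕ) : ℝ) / v) := by
    field_simp
  rw [h7, mul_pow, pow_succ (6 * (n : ℝ) / ((v + 1 : ℕ) : ℝ)) v]
  refine mul_le_mul_of_nonneg_left (h1.trans h6) (by positivity)

/-- Monotonicity in the number of vertices. -/
lemma six_mono {a b : ℕ} (ha : 1 ≤ a) (hab : a ≤ b) (hb : b ≤ n) :
    (6 * (n : ℝ) / (a : ℝ)) ^ a ≤ (6 * (n : ℝ) / (b : ℝ)) ^ b := by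
  induction b, hab using Nat.le_induction with
  | base => exact le_refl _
  | succ b hab ih =>
    refine (ih (by omega)).trans ?_
    exact six_step b (by omega) hb

/-- Monotonicity of the bound. -/
lemma Bd_mono {a b e : ℕ} {q : ℝ} (hq : 0 < q) (ha : 1 ≤ a) (hab : a ≤ b) (hb : b ≤ n) :
    Bd n a e q ≤ Bd n b e q := by
  unfold Bd
  refine mul_le_mul_of_nonneg_right ?_ (by positivity)
  refine mul_le_mul (six_mono ha hab hb) ?_ (by positivity) (by
    have : (0 : ℝ) < b := by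
      have : 0 < b := by omega
      exact_mod_cast this
    have hn0 : (0 : ℝ) ≤ n := Nat.cast_nonneg n
    positivity)
  refine pow_le_pow_left₀ (by positivity) ?_ e
  have : (a : ℝ) ≤ b := by exact_mod_cast hab
  linarith

/-- With no edge the bound is at least one. -/
lemma one_le_Bd_zero {v : ℕ} {q : ℝ} (hv : 1 ≤ v) (hvn : v ≤ n) : 1 ≤ Bd n v 0 q := by
  unfold Bd
  simp only [pow_zero, mul_one]
  refine one_le_pow₀ ?_
  have hv' : (0 : ℝ) < v := by exact_mod_cast hv
  rw [le_div_iff₀ hv']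
  have : (v : ℝ) ≤ n := by exact_mod_cast hvn
  have h0 : (0 : ℝ) ≤ n := Nat.cast_nonneg n
  linarith

/-- The sum over systems with large degree product. -/
lemma card_systems_ge (U : Finset (Fin n)) (hU : 0 < U.card) (e : ℕ) (A₀ : ℝ) (hA : 0 ≤ A₀) :
    (((Fintype.piFinset (allowed U)).filter
      (fun A => ∑ u, (A u).card = e ∧ A₀ < ∏ u, ((A u).card ! : ℝ))).card : ℝ) * A₀
      ≤ 2 ^ U.card * (2 * (U.card : ℝ)) ^ e := by
  set t : ℝ := 1 / (2 * (U.card : ℝ)) with ht
  have hv : (0 : ℝ) < U.card := by exact_mod_cast hU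
  have ht0 : 0 < t := by positivity
  set N := (Fintype.piFinset (allowed U)).filter
    (fun A => ∑ u, (A u).card = e ∧ A₀ < ∏ u, ((A u).card ! : ℝ)) with hN
  have h1 : (N.card : ℝ) * (A₀ * t ^ e)
      ≤ ∑ A ∈ N, ∏ u, (((A u).card ! : ℕ) : ℝ) * t ^ (A u).card := by
    rw [← nsmul_eq_mul, ← Finset.sum_const]
    refine Finset.sum_le_sum fun A hA' => ?_
    rcases Finset.mem_filter.mp hA' with ⟨_, h2, h3⟩
    rw [Finset.prod_mul_distrib, Finset.prod_pow_eq_pow_sum, h2]
    exact mul_le_mul_of_nonneg_right h3.le (by positivity)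
  have h2 : ∑ A ∈ N, ∏ u, (((A u).card ! : ℕ) : ℝ) * t ^ (A u).card
      ≤ ∑ A ∈ Fintype.piFinset (allowed U), ∏ u, (((A u).card ! : ℕ) : ℝ) * t ^ (A u).card := by
    refine Finset.sum_le_sum_of_subset_of_nonneg (Finset.filter_subset _ _) ?_
    intro A _ _
    positivity
  have h3 : ∑ A ∈ Fintype.piFinset (allowed U), ∏ u, (((A u).card ! : ℕ) : ℝ) * t ^ (A u).card
      = ∏ u, ∑ B ∈ allowed U u, ((B.card ! : ℕ) : ℝ) * t ^ B.card := by
    rw [Finset.prod_univ_sum]
  have h4 : ∏ u, ∑ B ∈ allowed U u, ((B.card ! : ℕ) : ℝ) * t ^ B.card ≤ 2 ^ U.card := by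
    have h5 : ∀ u ∈ (Finset.univ : Finset (Fin n)),
        ∑ B ∈ allowed U u, ((B.card ! : ℕ) : ℝ) * t ^ B.card ≤ if u ∈ U then (2 : ℝ) else 1 := by
      intro u _
      unfold allowed
      split_ifs with hu
      · exact sum_powerset_le_two U hU
      · simp
    calc ∏ u, ∑ B ∈ allowed U u, ((B.card ! : ℕ) : ℝ) * t ^ B.card
        ≤ ∏ u : Fin n, (if u ∈ U then (2 : ℝ) else 1) :=
          Finset.prod_le_prod (fun u _ => Finset.sum_nonneg fun B _ => by positivity) h5
      _ = 2 ^ U.card := by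
          rw [Finset.prod_ite]
          simp only [Finset.prod_const_one, mul_one, Finset.prod_const]
          congr 2
          ext u
          simp
  have h5 : (N.card : ℝ) * (A₀ * t ^ e) ≤ 2 ^ U.card := h1.trans ((h2.trans_eq h3).trans h4)
  have h6 : t ^ e * (2 * (U.card : ℝ)) ^ e = 1 := by
    rw [← mul_pow, ht]
    have : 1 / (2 * (U.card : ℝ)) * (2 * (U.card : ℝ)) = 1 := by field_simp
    rw [this, one_pow]
  have h7 : (0 : ℝ) ≤ (2 * (U.card : ℝ)) ^ e := by positivity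
  calc (N.card : ℝ) * A₀ = (N.card : ℝ) * A₀ * (t ^ e * (2 * (U.card : ℝ)) ^ e) := by
        rw [h6, mul_one]
    _ = ((N.card : ℝ) * (A₀ * t ^ e)) * (2 * (U.card : ℝ)) ^ e := by ring
    _ ≤ 2 ^ U.card * (2 * (U.card : ℝ)) ^ e := mul_le_mul_of_nonneg_right h5 h7

/-- The heavy oriented graphs with few vertices. -/
noncomputable def Heavy (n : ℕ) (q : ℝ) : Finset (Finset (Fin n) × (Fin n → Finset (Fin n))) :=
  Finset.univ.filter (fun P => IsOriented (⊤ : SimpleGraph (Fin n)) P.1 P.2 ∧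
    P.1.card ≤ 2 * eP P ∧ 1 ≤ eP P ∧ Bd n P.1.card (eP P) q < Dp P)

/-- The graph of an out-neighbourhood system. -/
def sysGraph (out : Fin n → Finset (Fin n)) : SimpleGraph (Fin n) :=
  SimpleGraph.fromRel (fun a b => b ∈ out a)

lemma sysGraph_adj {W : Finset (Fin n)} {out : Fin n → Finset (Fin n)}
    (h : IsOriented (⊤ : SimpleGraph (Fin n)) W out) (a b : Fin n) :
    (sysGraph out).Adj a b ↔ b ∈ out a ∨ a ∈ out b := by
  unfold sysGraph
  rw [SimpleGraph.fromRel_adj]
  constructor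
  · rintro ⟨_, h1⟩
    exact h1
  · intro h1
    refine ⟨?_, h1⟩
    rcases h1 with h1 | h1
    · exact (h.adj a b h1).ne
    · exact ((h.adj b a h1).ne).symm

lemma sum_out_eq {W : Finset (Fin n)} {out : Fin n → Finset (Fin n)}
    (h : IsOriented (⊤ : SimpleGraph (Fin n)) W out) :
    ∑ u, (out u).card = ∑ u ∈ W, (out u).card := by
  symm
  refine Finset.sum_subset (Finset.subset_univ _) fun u _ hu => ?_
  rw [h.off u hu]
  rfl

lemma prod_out_eq {W : Finset (Fin n)} {out : Fin n → Finset (Fin n)}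
    (h : IsOriented (⊤ : SimpleGraph (Fin n)) W out) :
    ∏ u, ((out u).card ! : ℝ) = ∏ u ∈ W, ((out u).card ! : ℝ) := by
  symm
  refine Finset.prod_subset (Finset.subset_univ _) fun u _ hu => ?_
  rw [h.off u hu]
  simp

lemma numEdges_sysGraph {W : Finset (Fin n)} {out : Fin n → Finset (Fin n)}
    (h : IsOriented (⊤ : SimpleGraph (Fin n)) W out) :
    numEdges (sysGraph out) = ∑ u ∈ W, (out u).card := by
  unfold numEdges
  rw [ncard_edgeSet_of_out (sysGraph out) out (sysGraph_adj h) h.anti, sum_out_eq h]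

/-- The number of heavy systems with given size. -/
lemma card_fiber_le {q : ℝ} (hn : 0 < n) (hq : 0 < q) {v e : ℕ} (hv : 1 ≤ v) (hvn : v ≤ n) :
    (((Heavy n q).filter (fun P => P.1.card = v ∧ eP P = e)).card : ℝ) * q ^ e ≤ 1 := by
  set A₀ := Bd n v e q with hA₀
  have hv' : (0 : ℝ) < v := by exact_mod_cast hv
  have hn' : (0 : ℝ) < n := by exact_mod_cast hn
  have hA0 : 0 < A₀ := by
    rw [hA₀]
    unfold Bd
    positivity
  set Sys : Finset (Fin n) → Finset (Fin n → Finset (Fin n)) := fun U =>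
    (Fintype.piFinset (allowed U)).filter
      (fun A => ∑ u, (A u).card = e ∧ A₀ < ∏ u, ((A u).card ! : ℝ)) with hSys
  set T : Finset (Σ _ : Finset (Fin n), (Fin n → Finset (Fin n))) :=
    (Finset.powersetCard v (Finset.univ : Finset (Fin n))).sigma Sys with hT
  have hcard : ((Heavy n q).filter (fun P => P.1.card = v ∧ eP P = e)).card ≤ T.card := by
    refine Finset.card_le_card_of_injOn (fun P => ⟨P.1, P.2⟩) ?_ ?_
    · intro P hP
      have hP' := Finset.mem_coe.mp hP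
      rcases Finset.mem_filter.mp hP' with ⟨hP1, hP2, hP3⟩
      rcases (Finset.mem_filter.mp hP1).2 with ⟨h1, h2, h3, h4⟩
      refine Finset.mem_coe.mpr (Finset.mem_sigma.mpr ⟨?_, ?_⟩)
      · exact Finset.mem_powersetCard.mpr ⟨Finset.subset_univ _, hP2⟩
      · refine Finset.mem_filter.mpr ⟨?_, ?_, ?_⟩
        · rw [Fintype.mem_piFinset]
          intro u
          unfold allowed
          split_ifs with hu
          · exact Finset.mem_powerset.mpr (h1.sub u hu)
          · have h6 := h1.off u hu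
            show P.2 u ∈ ({∅} : Finset (Finset (Fin n)))
            rw [h6]; simp
        · rw [sum_out_eq h1]
          exact hP3
        · rw [prod_out_eq h1]
          have h5 : Dp P = ∏ u ∈ P.1, (((P.2 u).card)! : ℝ) := rfl
          rw [← h5, hA₀, ← hP2, ← hP3]
          exact h4
    · rintro ⟨U, A⟩ _ ⟨U', A'⟩ _ h
      simp only [Sigma.mk.injEq, heq_eq_eq] at h
      rw [h.1, h.2]
  have hsum : (T.card : ℝ) * A₀ ≤ (n.choose v : ℝ) * (2 ^ v * (2 * (v : ℝ)) ^ e) := by
    rw [hT, Finset.card_sigma]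
    push_cast
    rw [Finset.sum_mul]
    calc ∑ U ∈ Finset.powersetCard v (Finset.univ : Finset (Fin n)), ((Sys U).card : ℝ) * A₀
        ≤ ∑ _U ∈ Finset.powersetCard v (Finset.univ : Finset (Fin n)),
            (2 ^ v * (2 * (v : ℝ)) ^ e) := by
          refine Finset.sum_le_sum fun U hU => ?_
          have hUc : U.card = v := (Finset.mem_powersetCard.mp hU).2
          have := card_systems_ge U (by omega) e A₀ hA0.le
          rwa [hUc] at this
      _ = (n.choose v : ℝ) * (2 ^ v * (2 * (v : ℝ)) ^ e) := by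
          rw [Finset.sum_const, Finset.card_powersetCard, Finset.card_univ, Fintype.card_fin,
            nsmul_eq_mul]
  have h1 : (n.choose v : ℝ) * 2 ^ v ≤ (6 * (n : ℝ) / (v : ℝ)) ^ v := by
    have h2 := choose_le_three n v (by omega)
    have h3 : (3 * (n : ℝ) / (v : ℝ)) ^ v * 2 ^ v = (6 * (n : ℝ) / (v : ℝ)) ^ v := by
      rw [← mul_pow]
      congr 1
      ring
    rw [← h3]
    exact mul_le_mul_of_nonneg_right h2 (by positivity)
  have hT1 : (((Heavy n q).filter (fun P => P.1.card = v ∧ eP P = e)).card : ℝ) ≤ T.card := by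
    exact_mod_cast hcard
  set c : ℝ := (((Heavy n q).filter (fun P => P.1.card = v ∧ eP P = e)).card : ℝ) with hc
  have hc0 : 0 ≤ c := Nat.cast_nonneg _
  have hqe : 0 < q ^ e := by positivity
  have hfac : 0 < (6 * (n : ℝ) / (v : ℝ)) ^ v * (2 * (v : ℝ)) ^ e := by positivity
  have h2 : c * q ^ e * ((6 * (n : ℝ) / (v : ℝ)) ^ v * (2 * (v : ℝ)) ^ e)
      ≤ 1 * ((6 * (n : ℝ) / (v : ℝ)) ^ v * (2 * (v : ℝ)) ^ e) := by
    calc c * q ^ e * ((6 * (n : ℝ) / (v : ℝ)) ^ v * (2 * (v : ℝ)) ^ e) = c * A₀ := by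
          rw [hA₀]; unfold Bd; ring
      _ ≤ (T.card : ℝ) * A₀ := mul_le_mul_of_nonneg_right hT1 hA0.le
      _ ≤ _ := hsum
      _ = ((n.choose v : ℝ) * 2 ^ v) * (2 * (v : ℝ)) ^ e := by ring
      _ ≤ (6 * (n : ℝ) / (v : ℝ)) ^ v * (2 * (v : ℝ)) ^ e :=
          mul_le_mul_of_nonneg_right h1 (by positivity)
      _ = _ := (one_mul _).symm
  exact le_of_mul_le_mul_right h2 hfac

/-- The geometric sum. -/
lemma sum_quarter_le (M : ℕ) : ∑ e ∈ Finset.Icc 1 M, ((2 * e : ℕ) : ℝ) * (1 / 8 : ℝ) ^ e ≤ 1 / 2 := by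
  have h1 : ∀ e ∈ Finset.Icc 1 M, ((2 * e : ℕ) : ℝ) * (1 / 8 : ℝ) ^ e ≤ (1 / 4 : ℝ) ^ e := by
    intro e he
    have he1 : 1 ≤ e := (Finset.mem_Icc.mp he).1
    have h2 : 2 * e ≤ 2 ^ e := by
      induction e, he1 using Nat.le_induction with
      | base => norm_num
      | succ k hk ih =>
        have := ih (Finset.mem_Icc.mpr ⟨hk, by
          have := (Finset.mem_Icc.mp he).2
          omega⟩)
        rw [pow_succ]
        omega
    have h3 : ((2 * e : ℕ) : ℝ) ≤ 2 ^ e := by exact_mod_cast h2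
    calc ((2 * e : ℕ) : ℝ) * (1 / 8 : ℝ) ^ e ≤ 2 ^ e * (1 / 8 : ℝ) ^ e :=
          mul_le_mul_of_nonneg_right h3 (by positivity)
      _ = (1 / 4 : ℝ) ^ e := by
          rw [← mul_pow]
          norm_num
  have h4 : ∑ e ∈ Finset.Icc 1 M, (1 / 4 : ℝ) ^ e ≤ 1 / 3 - (1 / 3) * (1 / 4 : ℝ) ^ M := by
    induction M with
    | zero => simp
    | succ M ih =>
      rw [Finset.sum_Icc_succ_top (by omega)]
      have := ih (fun e he => h1 e (Finset.mem_Icc.mpr ⟨(Finset.mem_Icc.mp he).1, by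
        have := (Finset.mem_Icc.mp he).2
        omega⟩))
      rw [pow_succ]
      nlinarith
  have h5 : (0 : ℝ) ≤ (1 / 3) * (1 / 4 : ℝ) ^ M := by positivity
  calc _ ≤ ∑ e ∈ Finset.Icc 1 M, (1 / 4 : ℝ) ^ e := Finset.sum_le_sum h1
    _ ≤ _ := h4
    _ ≤ 1 / 2 := by linarith

/-- The cost of all heavy systems. -/
lemma sum_heavy_le {q : ℝ} (hn : 0 < n) (hq : 0 < q) :
    ∑ P ∈ Heavy n q, (q / 8) ^ eP P ≤ 1 / 2 := by
  set M := (Heavy n q).sup eP with hM
  set I : Finset (Σ _ : ℕ, ℕ) := (Finset.Icc 1 M).sigma (fun e => Finset.Icc 1 (2 * e)) with hI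
  set m : Finset (Fin n) × (Fin n → Finset (Fin n)) → (Σ _ : ℕ, ℕ) := fun P => ⟨eP P, P.1.card⟩ with hm
  have hmaps : ∀ P ∈ Heavy n q, m P ∈ I := by
    intro P hP
    rcases (Finset.mem_filter.mp hP).2 with ⟨h1, h2, h3, h4⟩
    refine Finset.mem_sigma.mpr ⟨Finset.mem_Icc.mpr ⟨h3, Finset.le_sup (f := eP) hP⟩,
      Finset.mem_Icc.mpr ⟨?_, h2⟩⟩
    by_contra h0
    have h5 : P.1.card = 0 := by
      simp only [hm] at h0
      omega
    have h6 : P.1 = ∅ := Finset.card_eq_zero.mp h5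
    have h7 : eP P = 0 := by
      unfold eP
      rw [h6]
      simp
    omega
  rw [← Finset.sum_fiberwise_of_maps_to hmaps]
  have hfib : ∀ x ∈ I, ∑ P ∈ (Heavy n q).filter (fun P => m P = x), (q / 8) ^ eP P
      ≤ (1 / 8 : ℝ) ^ x.1 := by
    rintro ⟨e, v⟩ hx
    rcases Finset.mem_sigma.mp hx with ⟨he, hv⟩
    simp only at he hv
    have hv1 : 1 ≤ v := (Finset.mem_Icc.mp hv).1
    set T := (Heavy n q).filter (fun P => m P = ⟨e, v⟩) with hT
    have hT' : T = (Heavy n q).filter (fun P => P.1.card = v ∧ eP P = e) := by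
      rw [hT]
      refine Finset.filter_congr fun P _ => ?_
      simp only [hm, Sigma.mk.injEq, heq_eq_eq]
      tauto
    rw [show ∑ P ∈ T, (q / 8) ^ eP P = ∑ _P ∈ T, (q / 8) ^ e from
      Finset.sum_congr rfl fun P hP => by
        have : P ∈ (Heavy n q).filter (fun P => P.1.card = v ∧ eP P = e) := hT' ▸ hP
        rw [(Finset.mem_filter.mp this).2.2]]
    rw [Finset.sum_const, nsmul_eq_mul]
    by_cases hvn : v ≤ n
    · have h1 := card_fiber_le hn hq (e := e) hv1 hvn
      rw [← hT'] at h1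
      calc (T.card : ℝ) * (q / 8) ^ e = ((T.card : ℝ) * q ^ e) * (1 / 8 : ℝ) ^ e := by
            rw [div_pow, one_div, inv_pow]
            ring
        _ ≤ 1 * (1 / 8 : ℝ) ^ e := mul_le_mul_of_nonneg_right h1 (by positivity)
        _ = _ := one_mul _
    · have hT0 : T = ∅ := by
        rw [hT']
        refine Finset.filter_eq_empty_iff.mpr ?_
        rintro P _ ⟨h1, _⟩
        have : P.1.card ≤ n := by
          have := Finset.card_le_univ P.1
          simpa using this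
        omega
      rw [hT0]
      simp only [Finset.card_empty, Nat.cast_zero, zero_mul]
      positivity
  calc ∑ x ∈ I, ∑ P ∈ (Heavy n q).filter (fun P => m P = x), (q / 8) ^ eP P
      ≤ ∑ x ∈ I, (1 / 8 : ℝ) ^ x.1 := Finset.sum_le_sum hfib
    _ = ∑ e ∈ Finset.Icc 1 M, ((2 * e : ℕ) : ℝ) * (1 / 8 : ℝ) ^ e := by
        rw [hI, Finset.sum_sigma]
        refine Finset.sum_congr rfl fun e _ => ?_
        simp
    _ ≤ 1 / 2 := sum_quarter_le M

/-- The cover. -/
noncomputable def coverOf (n : ℕ) (q : ℝ) : Finset (SimpleGraph (Fin n)) :=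
  (Heavy n q).image (fun P => sysGraph P.2)

lemma cost_cover {q : ℝ} (hn : 0 < n) (hq : 0 < q) :
    ∑ S ∈ coverOf n q, (q / 8) ^ numEdges S ≤ 1 / 2 := by
  unfold coverOf
  refine (Finset.sum_image_le_of_nonneg (fun S _ => by positivity)).trans ?_
  refine le_trans (le_of_eq ?_) (sum_heavy_le hn hq)
  refine Finset.sum_congr rfl fun P hP => ?_
  rcases (Finset.mem_filter.mp hP).2 with ⟨h1, _, _, _⟩
  rw [numEdges_sysGraph h1]
  rfl

/-- A graph with a heavy oriented subgraph contains a member of the cover. -/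
lemma exists_cover {H : SimpleGraph (Fin n)} {q : ℝ} (hq : 0 < q) (hH : ¬ OBound H n q) :
    ∃ S ∈ coverOf n q, S ≤ H := by
  unfold OBound at hH
  push Not at hH
  obtain ⟨W, out, hor, hWne, hheavy⟩ := hH
  set e := ∑ u ∈ W, (out u).card with he
  have hWn : W.card ≤ n := by
    have := Finset.card_le_univ W
    simpa using this
  have hv : 1 ≤ W.card := Finset.card_pos.mpr hWne
  have he1 : 1 ≤ e := by
    by_contra h0
    have h1 : e = 0 := by omega
    have h2 : ∏ u ∈ W, (((out u).card)! : ℝ) = 1 := by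
      refine Finset.prod_eq_one fun u hu => ?_
      have h3 : (out u).card = 0 := by
        have := (Finset.sum_eq_zero_iff (s := W) (f := fun u => (out u).card)).mp h1 u hu
        exact this
      rw [h3]
      simp
    rw [h2, h1] at hheavy
    have h4 := one_le_Bd_zero (q := q) hv hWn
    unfold Bd at h4
    linarith
  -- remove the isolated vertices
  set W₀ := W.filter (fun u => (out u).Nonempty ∨ ∃ t ∈ W, u ∈ out t) with hW₀
  have hsub : W₀ ⊆ W := Finset.filter_subset _ _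
  have hor₀ : IsOriented H W₀ out := by
    refine ⟨?_, ?_, hor.adj, hor.anti⟩
    · intro u hu t ht
      refine Finset.mem_filter.mpr ⟨hor.sub u (hsub hu) ht, Or.inr ⟨u, hsub hu, ht⟩⟩
    · intro u hu
      by_cases hu' : u ∈ W
      · by_contra h0
        exact hu (Finset.mem_filter.mpr ⟨hu', Or.inl (Finset.nonempty_iff_ne_empty.mpr h0)⟩)
      · exact hor.off u hu'
  have hsum₀ : ∑ u ∈ W₀, (out u).card = e := by
    refine Finset.sum_subset hsub fun u hu hu' => ?_
    have h1 := hor₀.off u hu'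
    rw [h1]
    rfl
  have hprod₀ : ∏ u ∈ W₀, (((out u).card)! : ℝ) = ∏ u ∈ W, (((out u).card)! : ℝ) := by
    refine Finset.prod_subset hsub fun u hu hu' => ?_
    have h1 := hor₀.off u hu'
    rw [h1]
    simp
  have hcard₀ : W₀.card ≤ 2 * e := by
    have h1 : W₀ ⊆ (W.filter (fun u => (out u).Nonempty)) ∪ W.biUnion out := by
      intro u hu
      rcases (Finset.mem_filter.mp hu) with ⟨h2, h3 | ⟨t, h3, h4⟩⟩
      · exact Finset.mem_union_left _ (Finset.mem_filter.mpr ⟨h2, h3⟩)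
      · exact Finset.mem_union_right _ (Finset.mem_biUnion.mpr ⟨t, h3, h4⟩)
    have h2 : (W.filter (fun u => (out u).Nonempty)).card ≤ e := by
      rw [Finset.card_eq_sum_ones, he]
      calc ∑ u ∈ W.filter (fun u => (out u).Nonempty), 1
          ≤ ∑ u ∈ W.filter (fun u => (out u).Nonempty), (out u).card :=
            Finset.sum_le_sum fun u hu => Finset.card_pos.mpr (Finset.mem_filter.mp hu).2
        _ ≤ ∑ u ∈ W, (out u).card :=
            Finset.sum_le_sum_of_subset_of_nonneg (Finset.filter_subset _ _)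
              (fun _ _ _ => Nat.zero_le _)
    have h3 : (W.biUnion out).card ≤ e := Finset.card_biUnion_le
    have h4 := Finset.card_le_card h1
    have h5 := Finset.card_union_le (W.filter (fun u => (out u).Nonempty)) (W.biUnion out)
    omega
  have hv₀ : 1 ≤ W₀.card := by
    by_contra h0
    have h1 : W₀ = ∅ := Finset.card_eq_zero.mp (by omega)
    rw [h1] at hsum₀
    simp at hsum₀
    omega
  have hle : W₀.card ≤ W.card := Finset.card_le_card hsub
  have hmono : Bd n W₀.card e q ≤ Bd n W.card e q := Bd_mono hq hv₀ hle hWn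
  have horT : IsOriented (⊤ : SimpleGraph (Fin n)) W₀ out := by
    refine ⟨hor₀.sub, hor₀.off, ?_, hor₀.anti⟩
    intro u t ht
    exact (hor₀.adj u t ht).ne
  refine ⟨sysGraph out, ?_, ?_⟩
  · refine Finset.mem_image.mpr ⟨(W₀, out), ?_, rfl⟩
    refine Finset.mem_filter.mpr ⟨Finset.mem_univ _, horT, ?_, ?_, ?_⟩
    · show W₀.card ≤ 2 * (∑ u ∈ W₀, (out u).card)
      rw [hsum₀]
      exact hcard₀
    · show 1 ≤ ∑ u ∈ W₀, (out u).card
      rw [hsum₀]
      exact he1
    · show Bd n W₀.card (∑ u ∈ W₀, (out u).card) q < ∏ u ∈ W₀, (((out u).card)! : ℝ)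
      rw [hsum₀, hprod₀]
      refine lt_of_le_of_lt hmono ?_
      unfold Bd
      exact hheavy
  · intro a b hab
    rcases (sysGraph_adj horT a b).mp hab with h | h
    · exact hor₀.adj a b h
    · exact (hor₀.adj b a h).symm

end Vale.Agent.Lib.P034
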