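import Vale.Agent.Lib.P034.Selection

/-!
# Rounding fractional covers supported on large sets

A fractional cover `g` of an increasing family `F`, all of whose minimal members have at most `l`
elements, can be rounded to an integral cover as soon as the cost of `g` is small at the doubled
density: `2 * l * w(g, 2 r) ≤ 1/8` and `w(g, r) ≤ 1/8` give a cover of cost at most `1/2` at `r`.
-/

namespace Vale.Agent.Lib.P034.LargeSet

open Finset
open Classical

set_option linter.unusedSectionVars false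

variable {X : Type*} [Fintype X] [DecidableEq X]

/-- An injective numbering of the subsets of `X`. -/
noncomputable def rk (A : Finset X) : ℕ := (Fintype.equivFin (Finset X) A : ℕ)

lemma rk_inj {A B : Finset X} (h : rk A = rk B) : A = B :=
  (Fintype.equivFin (Finset X)).injective (Fin.ext h)

/-- Members of `F` of size at most `l` inside `Z`. -/
noncomputable def wit (F : Finset X → Prop) (l : ℕ) (Z : Finset X) : Finset (Finset X) :=
  Z.powerset.filter fun B => F B ∧ B.card ≤ l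

/-- The canonical small member of `F` inside `Z`: the one of least number. -/
noncomputable def canon (F : Finset X → Prop) (l : ℕ) (Z : Finset X) : Finset X :=
  if h : (wit F l Z).Nonempty then (exists_min_image (wit F l Z) rk h).choose else ∅

variable {F : Finset X → Prop} {l : ℕ}

lemma canon_spec {Z : Finset X} (h : (wit F l Z).Nonempty) :
    canon F l Z ∈ wit F l Z ∧ ∀ B ∈ wit F l Z, rk (canon F l Z) ≤ rk B := by
  unfold canon
  rw [dif_pos h]
  exact (exists_min_image _ rk h).choose_spec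

lemma wit_nonempty (hl : ∀ A, F A → ∃ B, B ⊆ A ∧ F B ∧ B.card ≤ l) {Z : Finset X} (hZ : F Z) :
    (wit F l Z).Nonempty := by
  obtain ⟨B, hBZ, hFB, hB⟩ := hl Z hZ
  exact ⟨B, mem_filter.2 ⟨mem_powerset.2 hBZ, hFB, hB⟩⟩

lemma canon_props (hl : ∀ A, F A → ∃ B, B ⊆ A ∧ F B ∧ B.card ≤ l) {Z : Finset X} (hZ : F Z) :
    canon F l Z ⊆ Z ∧ F (canon F l Z) ∧ (canon F l Z).card ≤ l := by
  have := (canon_spec (wit_nonempty hl hZ)).1
  rw [wit, mem_filter, mem_powerset] at this
  exact this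

lemma canon_stable (hl : ∀ A, F A → ∃ B, B ⊆ A ∧ F B ∧ B.card ≤ l) {Z Z' : Finset X} (hZ : F Z)
    (h1 : canon F l Z ⊆ Z') (h2 : Z' ⊆ Z) : canon F l Z' = canon F l Z := by
  obtain ⟨h3, h4, h5⟩ := canon_props hl hZ
  have hmem : canon F l Z ∈ wit F l Z' := mem_filter.2 ⟨mem_powerset.2 h1, h4, h5⟩
  have hne : (wit F l Z').Nonempty := ⟨_, hmem⟩
  obtain ⟨h6, h7⟩ := canon_spec hne
  apply rk_inj
  apply le_antisymm (h7 _ hmem)
  apply (canon_spec (wit_nonempty hl hZ)).2
  rw [wit, mem_filter, mem_powerset] at h6 ⊢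
  exact ⟨h6.1.trans h2, h6.2⟩

/-- The sets `T` disjoint from `W` with `F (T ∪ W)` and `T` inside the canonical small member of
`T ∪ W`. -/
noncomputable def fam (F : Finset X → Prop) (l : ℕ) (W : Finset X) : Finset (Finset X) :=
  univ.filter fun T => Disjoint T W ∧ F (T ∪ W) ∧ T ⊆ canon F l (T ∪ W)

lemma exists_mem_fam (hup : ∀ A B, A ⊆ B → F A → F B)
    (hl : ∀ A, F A → ∃ B, B ⊆ A ∧ F B ∧ B.card ≤ l) {H : Finset X} (hH : F H) (W : Finset X) :
    ∃ T ∈ fam F l W, T ⊆ H := by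
  have hHW : F (H ∪ W) := hup _ _ subset_union_left hH
  obtain ⟨h3, h4, h5⟩ := canon_props hl hHW
  have hsub : canon F l (H ∪ W) ⊆ canon F l (H ∪ W) \ W ∪ W := by
    intro x hx
    by_cases hxW : x ∈ W
    · exact mem_union_right _ hxW
    · exact mem_union_left _ (mem_sdiff.2 ⟨hx, hxW⟩)
  have hsub2 : canon F l (H ∪ W) \ W ∪ W ⊆ H ∪ W := by
    intro x hx
    rcases mem_union.1 hx with hx | hx
    · exact h3 (mem_sdiff.1 hx).1
    · exact mem_union_right _ hx
  refine ⟨canon F l (H ∪ W) \ W, ?_, ?_⟩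
  · rw [fam, mem_filter]
    refine ⟨mem_univ _, sdiff_disjoint, hup _ _ hsub h4, ?_⟩
    rw [canon_stable hl hHW hsub hsub2]
    exact sdiff_subset
  · intro x hx
    obtain ⟨hxC, hxW⟩ := mem_sdiff.1 hx
    exact (mem_union.1 (h3 hxC)).resolve_right hxW

lemma sel_const (r : ℝ) (W : Finset X) :
    sel (fun _ => r) W = r ^ W.card * (1 - r) ^ (Wᶜ).card := by
  simp [sel, prod_const]

lemma sel_mul_pow_le {r : ℝ} (hr0 : 0 ≤ r) (hr1 : r ≤ 1) {T W : Finset X} (h : Disjoint T W) :
    sel (fun _ => r) W * r ^ T.card ≤ sel (fun _ => r) (T ∪ W) := by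
  rw [sel_const, sel_const, card_union_of_disjoint h, pow_add]
  have h1 : (1 - r) ^ (Wᶜ).card ≤ (1 - r) ^ ((T ∪ W)ᶜ).card := by
    apply pow_le_pow_of_le_one (by linarith) (by linarith)
    apply card_le_card
    exact compl_subset_compl.2 subset_union_right
  have h2 : 0 ≤ r ^ T.card * r ^ W.card := by positivity
  calc r ^ W.card * (1 - r) ^ (Wᶜ).card * r ^ T.card
      = r ^ T.card * r ^ W.card * (1 - r) ^ (Wᶜ).card := by ring
    _ ≤ r ^ T.card * r ^ W.card * (1 - r) ^ ((T ∪ W)ᶜ).card :=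
        mul_le_mul_of_nonneg_left h1 h2

lemma sel_const_nonneg {r : ℝ} (hr0 : 0 ≤ r) (hr1 : r ≤ 1) (W : Finset X) :
    0 ≤ sel (fun _ => r) W :=
  sel_nonneg (fun _ => hr0) (fun _ => hr1) W

/-- The double counting over `W` and `T ∈ fam W`. -/
lemma sum_fam_le {r : ℝ} (hr0 : 0 ≤ r) (hr1 : r ≤ 1)
    (hl : ∀ A, F A → ∃ B, B ⊆ A ∧ F B ∧ B.card ≤ l) :
    ∑ W, sel (fun _ => r) W * ∑ T ∈ fam F l W, r ^ T.card ≤
      2 ^ l * ∑ Z, (if F Z then sel (fun _ => r) Z else 0) := by
  have step1 : ∀ W : Finset X, sel (fun _ => r) W * ∑ T ∈ fam F l W, r ^ T.card ≤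
      ∑ T, (if T ∈ fam F l W then sel (fun _ => r) (T ∪ W) else 0) := by
    intro W
    rw [mul_sum, Finset.sum_ite_mem, univ_inter]
    refine sum_le_sum fun T hT => ?_
    exact sel_mul_pow_le hr0 hr1 (mem_filter.1 hT).2.1
  have step2 : ∀ T : Finset X,
      ∑ W, (if T ∈ fam F l W then sel (fun _ => r) (T ∪ W) else 0) ≤
      ∑ Z, (if F Z ∧ T ⊆ canon F l Z then sel (fun _ => r) Z else 0) := by
    intro T
    rw [← sum_filter, ← sum_filter]
    have himg : ∑ W ∈ univ.filter (fun W => T ∈ fam F l W), sel (fun _ => r) (T ∪ W) =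
        ∑ Z ∈ (univ.filter (fun W => T ∈ fam F l W)).image (fun W => T ∪ W),
          sel (fun _ => r) Z := by
      rw [sum_image]
      intro W1 h1 W2 h2 heq
      have h1' := (mem_filter.1 (mem_filter.1 h1).2).2.1
      have h2' := (mem_filter.1 (mem_filter.1 h2).2).2.1
      have heq' : T ∪ W1 = T ∪ W2 := heq
      rw [← union_sdiff_cancel_left h1', ← union_sdiff_cancel_left h2', heq']
    rw [himg]
    apply sum_le_sum_of_subset_of_nonneg
    · intro Z hZ
      obtain ⟨W, hW, rfl⟩ := mem_image.1 hZ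
      have := (mem_filter.1 (mem_filter.1 hW).2).2
      exact mem_filter.2 ⟨mem_univ _, this.2.1, this.2.2⟩
    · intro Z _ _
      exact sel_const_nonneg hr0 hr1 Z
  calc ∑ W, sel (fun _ => r) W * ∑ T ∈ fam F l W, r ^ T.card
      ≤ ∑ W, ∑ T, (if T ∈ fam F l W then sel (fun _ => r) (T ∪ W) else 0) :=
        sum_le_sum fun W _ => step1 W
    _ = ∑ T, ∑ W, (if T ∈ fam F l W then sel (fun _ => r) (T ∪ W) else 0) := sum_comm
    _ ≤ ∑ T, ∑ Z, (if F Z ∧ T ⊆ canon F l Z then sel (fun _ => r) Z else 0) :=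
        sum_le_sum fun T _ => step2 T
    _ = ∑ Z, ∑ T, (if F Z ∧ T ⊆ canon F l Z then sel (fun _ => r) Z else 0) := sum_comm
    _ ≤ ∑ Z, 2 ^ l * (if F Z then sel (fun _ => r) Z else 0) := by
        refine sum_le_sum fun Z _ => ?_
        by_cases hZ : F Z
        · simp only [hZ, true_and, if_true]
          rw [← sum_filter, sum_const, nsmul_eq_mul]
          have hpow : univ.filter (fun T => T ⊆ canon F l Z) = (canon F l Z).powerset := by
            ext T; simp
          rw [hpow, card_powerset]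
          push_cast
          apply mul_le_mul_of_nonneg_right _ (sel_const_nonneg hr0 hr1 Z)
          exact pow_le_pow_right₀ (by norm_num) (canon_props hl hZ).2.2
        · simp [hZ]
    _ = 2 ^ l * ∑ Z, (if F Z then sel (fun _ => r) Z else 0) := by
        rw [mul_sum]

/-- The `g`-mass of the subsets of `Z`. -/
noncomputable def gsum (g : Finset X → ℝ) (Z : Finset X) : ℝ := ∑ S ∈ Z.powerset, g S

lemma sum_powerset_eq (f : Finset X → ℝ) (Z : Finset X) :
    ∑ S ∈ Z.powerset, f S = ∑ S, if S ⊆ Z then f S else 0 := by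
  rw [← sum_filter]
  refine sum_congr ?_ fun _ _ => rfl
  ext S; simp

lemma gsum_nonneg {g : Finset X → ℝ} (hg0 : ∀ S, 0 ≤ g S) (Z : Finset X) : 0 ≤ gsum g Z :=
  sum_nonneg fun S _ => hg0 S

/-- The expected `g`-mass inside an `r`-random set is `w(g, r)`. -/
lemma sum_sel_gsum (g : Finset X → ℝ) (r : ℝ) :
    ∑ Z, sel (fun _ => r) Z * gsum g Z = ∑ S, g S * r ^ S.card := by
  calc ∑ Z, sel (fun _ => r) Z * gsum g Z
      = ∑ Z, ∑ S, (if S ⊆ Z then sel (fun _ => r) Z else 0) * g S := by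
        refine sum_congr rfl fun Z _ => ?_
        rw [gsum, sum_powerset_eq, mul_sum]
        refine sum_congr rfl fun S _ => ?_
        split_ifs <;> simp
    _ = ∑ S, ∑ Z, (if S ⊆ Z then sel (fun _ => r) Z else 0) * g S := sum_comm
    _ = ∑ S, g S * r ^ S.card := by
        refine sum_congr rfl fun S _ => ?_
        rw [← sum_mul, sum_sel_superset, prod_const, mul_comm]

/-- The `r`-probability of `F` is at most `w(g, r)`. -/
lemma sum_F_le {g : Finset X → ℝ} (hg0 : ∀ S, 0 ≤ g S)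
    (hcover : ∀ H, F H → 1 ≤ ∑ S ∈ H.powerset, g S) {r : ℝ} (hr0 : 0 ≤ r) (hr1 : r ≤ 1) :
    ∑ Z, (if F Z then sel (fun _ => r) Z else 0) ≤ ∑ S, g S * r ^ S.card := by
  rw [← sum_sel_gsum]
  refine sum_le_sum fun Z _ => ?_
  have hP := sel_const_nonneg hr0 hr1 Z
  split_ifs with hZ
  · have := hcover Z hZ
    calc sel (fun _ => r) Z = sel (fun _ => r) Z * 1 := (mul_one _).symm
      _ ≤ sel (fun _ => r) Z * gsum g Z := mul_le_mul_of_nonneg_left this hP
  · exact mul_nonneg hP (gsum_nonneg hg0 Z)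

/-- The `g`-mass of the sets with trace `A` outside `W`. -/
noncomputable def gW (g : Finset X → ℝ) (W A : Finset X) : ℝ := ∑ S with S \ W = A, g S

lemma gW_nonneg {g : Finset X → ℝ} (hg0 : ∀ S, 0 ≤ g S) (W A : Finset X) : 0 ≤ gW g W A :=
  sum_nonneg fun S _ => hg0 S

lemma sum_gW_mul (g : Finset X → ℝ) (W : Finset X) (f : Finset X → ℝ) :
    ∑ A, gW g W A * f A = ∑ S, g S * f (S \ W) := by
  unfold gW
  simp_rw [sum_mul]
  rw [← Finset.sum_fiberwise univ (fun S => S \ W) (fun S => g S * f (S \ W))]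
  refine sum_congr rfl fun A _ => sum_congr rfl fun S hS => ?_
  rw [(mem_filter.1 hS).2]

lemma sum_powerset_gW (g : Finset X → ℝ) (W T : Finset X) :
    ∑ A ∈ T.powerset, gW g W A = gsum g (T ∪ W) := by
  have h1 : ∑ A ∈ T.powerset, gW g W A = ∑ A, gW g W A * (if A ⊆ T then 1 else 0) := by
    rw [sum_powerset_eq]
    refine sum_congr rfl fun A _ => ?_
    split_ifs <;> simp
  rw [h1, sum_gW_mul, gsum, sum_powerset_eq]
  refine sum_congr rfl fun S _ => ?_
  have h2 : S \ W ⊆ T ↔ S ⊆ T ∪ W := by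
    constructor
    · intro h x hx
      by_cases hxW : x ∈ W
      · exact mem_union_right _ hxW
      · exact mem_union_left _ (h (mem_sdiff.2 ⟨hx, hxW⟩))
    · intro h x hx
      obtain ⟨hxS, hxW⟩ := mem_sdiff.1 hx
      exact (mem_union.1 (h hxS)).resolve_right hxW
  simp only [h2]
  split_ifs <;> simp

lemma gW_empty (g : Finset X → ℝ) (W : Finset X) : gW g W ∅ = gsum g W := by
  have := sum_powerset_gW g W ∅
  simpa using this

/-- The rate before truncation. -/
noncomputable def xW (g : Finset X → ℝ) (l : ℕ) (W A : Finset X) : ℝ :=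
  if A = ∅ then 0 else 2 * l * gW g W A

/-- The selection probability of the trace `A`. -/
noncomputable def qW (g : Finset X → ℝ) (l : ℕ) (W A : Finset X) : ℝ := min 1 (xW g l W A)

lemma xW_nonneg {g : Finset X → ℝ} (hg0 : ∀ S, 0 ≤ g S) (W A : Finset X) : 0 ≤ xW g l W A := by
  unfold xW
  split_ifs
  · exact le_rfl
  · have := gW_nonneg hg0 W A
    positivity

lemma qW_nonneg {g : Finset X → ℝ} (hg0 : ∀ S, 0 ≤ g S) (W A : Finset X) : 0 ≤ qW g l W A :=
  le_min zero_le_one (xW_nonneg hg0 W A)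

lemma qW_le_one (g : Finset X → ℝ) (W A : Finset X) : qW g l W A ≤ 1 := min_le_left _ _

lemma qW_le {g : Finset X → ℝ} (hg0 : ∀ S, 0 ≤ g S) (W A : Finset X) :
    qW g l W A ≤ 2 * l * gW g W A := by
  refine (min_le_right _ _).trans ?_
  unfold xW
  split_ifs
  · have := gW_nonneg hg0 W A
    positivity
  · exact le_rfl

lemma one_sub_qW_le (g : Finset X → ℝ) (W A : Finset X) :
    1 - qW g l W A ≤ Real.exp (-xW g l W A) := by
  unfold qW
  rcases min_cases 1 (xW g l W A) with ⟨h1, _⟩ | ⟨h1, _⟩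
  · rw [h1]
    have := Real.exp_pos (-xW g l W A)
    linarith
  · rw [h1]
    have := Real.add_one_le_exp (-xW g l W A)
    linarith

/-- For a good `W`, each `T ∈ fam W` is hit except with probability `exp (-l)`. -/
lemma prod_miss_le {g : Finset X → ℝ}
    (hcover : ∀ H, F H → 1 ≤ ∑ S ∈ H.powerset, g S) {W T : Finset X} (hT : T ∈ fam F l W)
    (hgood : gsum g W < 1 / 2) :
    ∏ A ∈ T.powerset, (1 - qW g l W A) ≤ Real.exp (-(l : ℝ)) := by
  have h1 : ∏ A ∈ T.powerset, (1 - qW g l W A) ≤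
      ∏ A ∈ T.powerset, Real.exp (-xW g l W A) := by
    apply prod_le_prod
    · intro A _
      exact sub_nonneg.2 (qW_le_one g W A)
    · intro A _
      exact one_sub_qW_le g W A
  refine h1.trans ?_
  rw [← Real.exp_sum]
  apply Real.exp_le_exp.2
  rw [sum_neg_distrib]
  apply neg_le_neg
  have hF : F (T ∪ W) := (mem_filter.1 hT).2.2.1
  have hc : 1 ≤ gsum g (T ∪ W) := hcover _ hF
  have h2 : ∑ A ∈ T.powerset, (2 * (l : ℝ) * gW g W A - xW g l W A) = 2 * l * gW g W ∅ := by
    have h3 : ∀ A ∈ T.powerset, (2 * (l : ℝ) * gW g W A - xW g l W A) =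
        if A = ∅ then 2 * (l : ℝ) * gW g W ∅ else 0 := by
      intro A _
      unfold xW
      split_ifs with hA
      · rw [hA]; ring
      · ring
    rw [sum_congr rfl h3, Finset.sum_ite_eq' T.powerset ∅]
    simp
  rw [sum_sub_distrib, ← mul_sum, sum_powerset_gW, gW_empty] at h2
  have hl0 : (0 : ℝ) ≤ l := Nat.cast_nonneg l
  nlinarith

/-- The cost of the cover built from the selected traces `R` and the unhit members of `fam'`,
plus a penalty `b`. -/
noncomputable def cost (r : ℝ) (fam' : Finset (Finset X)) (b : ℝ) (R : Finset (Finset X)) : ℝ :=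
  ∑ A ∈ R, r ^ A.card + ∑ T ∈ fam', (if Disjoint R T.powerset then r ^ T.card else 0) + b

lemma expected_cost (q : Finset X → ℝ) (r : ℝ) (fam' : Finset (Finset X)) (b : ℝ) :
    ∑ R, sel q R * cost r fam' b R =
      ∑ A, q A * r ^ A.card + ∑ T ∈ fam', r ^ T.card * ∏ A ∈ T.powerset, (1 - q A) + b := by
  unfold cost
  simp_rw [mul_add]
  rw [sum_add_distrib, sum_add_distrib, sum_sel_sum]
  congr 1
  · congr 1
    simp_rw [mul_sum]
    rw [sum_comm]
    refine sum_congr rfl fun T _ => ?_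
    rw [← sum_sel_disjoint, mul_sum]
    refine sum_congr rfl fun R _ => ?_
    split_ifs <;> ring
  · rw [← sum_mul, sum_sel, one_mul]

/-- The family to be hit: `fam W` if `W` is good, otherwise nothing. -/
noncomputable def famW (F : Finset X → Prop) (l : ℕ) (g : Finset X → ℝ) (W : Finset X) :
    Finset (Finset X) := if gsum g W < 1 / 2 then fam F l W else ∅

/-- The penalty for a bad `W`. -/
noncomputable def badW (g : Finset X → ℝ) (W : Finset X) : ℝ :=
  if gsum g W < 1 / 2 then 0 else 1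

/-- The bound on the conditional expected cost given `W`. -/
noncomputable def bW (F : Finset X → Prop) (l : ℕ) (g : Finset X → ℝ) (r : ℝ) (W : Finset X) : ℝ :=
  2 * l * ∑ S, g S * r ^ (S \ W).card +
    Real.exp (-(l : ℝ)) * ∑ T ∈ fam F l W, r ^ T.card + badW g W

lemma inner_bound {g : Finset X → ℝ} (hg0 : ∀ S, 0 ≤ g S)
    (hcover : ∀ H, F H → 1 ≤ ∑ S ∈ H.powerset, g S) {r : ℝ} (hr0 : 0 ≤ r) (W : Finset X) :
    ∑ R, sel (qW g l W) R * cost r (famW F l g W) (badW g W) R ≤ bW F l g r W := by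
  rw [expected_cost, bW]
  have h1 : ∑ A, qW g l W A * r ^ A.card ≤ 2 * l * ∑ S, g S * r ^ (S \ W).card := by
    have := sum_gW_mul g W (fun A => r ^ A.card)
    rw [← this, mul_sum]
    refine sum_le_sum fun A _ => ?_
    rw [← mul_assoc]
    exact mul_le_mul_of_nonneg_right (qW_le hg0 W A) (by positivity)
  have h2 : ∑ T ∈ famW F l g W, r ^ T.card * ∏ A ∈ T.powerset, (1 - qW g l W A) ≤
      Real.exp (-(l : ℝ)) * ∑ T ∈ fam F l W, r ^ T.card := by
    unfold famW
    split_ifs with hgood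
    · rw [mul_sum]
      refine sum_le_sum fun T hT => ?_
      rw [mul_comm]
      exact mul_le_mul_of_nonneg_right (prod_miss_le hcover hT hgood) (by positivity)
    · rw [sum_empty]
      have : 0 ≤ ∑ T ∈ fam F l W, r ^ T.card := sum_nonneg fun T _ => by positivity
      have := Real.exp_pos (-(l : ℝ))
      positivity
  linarith

lemma badW_le {g : Finset X → ℝ} (hg0 : ∀ S, 0 ≤ g S) (W : Finset X) :
    badW g W ≤ 2 * gsum g W := by
  unfold badW
  split_ifs with h
  · have := gsum_nonneg hg0 W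
    linarith
  · push Not at h
    linarith

lemma outer_bound {g : Finset X → ℝ} (hg0 : ∀ S, 0 ≤ g S)
    (hcover : ∀ H, F H → 1 ≤ ∑ S ∈ H.powerset, g S)
    (hl : ∀ A, F A → ∃ B, B ⊆ A ∧ F B ∧ B.card ≤ l) {r : ℝ} (hr0 : 0 ≤ r) (hr1 : r ≤ 1) :
    ∑ W, sel (fun _ => r) W * bW F l g r W ≤
      2 * l * ∑ S, g S * (2 * r) ^ S.card + 3 * ∑ S, g S * r ^ S.card := by
  have hE0 := sum_F_le hg0 hcover hr0 hr1
  have hT1 : ∑ W, sel (fun _ => r) W * ∑ S, g S * r ^ (S \ W).card ≤
      ∑ S, g S * (2 * r) ^ S.card := by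
    calc ∑ W, sel (fun _ => r) W * ∑ S, g S * r ^ (S \ W).card
        = ∑ S, g S * ∑ W, sel (fun _ => r) W * r ^ (S \ W).card := by
          simp_rw [mul_sum]
          rw [sum_comm]
          refine sum_congr rfl fun S _ => sum_congr rfl fun W _ => ?_
          ring
      _ ≤ ∑ S, g S * (2 * r) ^ S.card :=
          sum_le_sum fun S _ =>
            mul_le_mul_of_nonneg_left (sum_sel_pow_sdiff hr0 hr1 S) (hg0 S)
  have hT2 : Real.exp (-(l : ℝ)) * ∑ W, sel (fun _ => r) W * ∑ T ∈ fam F l W, r ^ T.card ≤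
      ∑ S, g S * r ^ S.card := by
    have h1 := sum_fam_le (F := F) (l := l) hr0 hr1 hl
    have hexp : Real.exp (-(l : ℝ)) * 2 ^ l ≤ 1 := by
      have h2 : (2 : ℝ) ^ l ≤ Real.exp (l : ℝ) := by
        have h3 : (2 : ℝ) ≤ Real.exp 1 := by
          have := Real.add_one_le_exp (1 : ℝ)
          linarith
        calc (2 : ℝ) ^ l ≤ (Real.exp 1) ^ l := pow_le_pow_left₀ (by norm_num) h3 l
          _ = Real.exp (l : ℝ) := by
            rw [← Real.exp_nat_mul, mul_one]
      calc Real.exp (-(l : ℝ)) * 2 ^ l ≤ Real.exp (-(l : ℝ)) * Real.exp (l : ℝ) :=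
            mul_le_mul_of_nonneg_left h2 (Real.exp_pos _).le
        _ = 1 := by rw [← Real.exp_add]; simp
    have hZ0 : 0 ≤ ∑ Z, (if F Z then sel (fun _ => r) Z else 0) := by
      refine sum_nonneg fun Z _ => ?_
      split_ifs
      · exact sel_const_nonneg hr0 hr1 Z
      · exact le_rfl
    calc Real.exp (-(l : ℝ)) * ∑ W, sel (fun _ => r) W * ∑ T ∈ fam F l W, r ^ T.card
        ≤ Real.exp (-(l : ℝ)) * (2 ^ l * ∑ Z, (if F Z then sel (fun _ => r) Z else 0)) :=
          mul_le_mul_of_nonneg_left h1 (Real.exp_pos _).le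
      _ = (Real.exp (-(l : ℝ)) * 2 ^ l) * ∑ Z, (if F Z then sel (fun _ => r) Z else 0) := by
          ring
      _ ≤ 1 * ∑ Z, (if F Z then sel (fun _ => r) Z else 0) :=
          mul_le_mul_of_nonneg_right hexp hZ0
      _ ≤ ∑ S, g S * r ^ S.card := by rw [one_mul]; exact hE0
  have hT3 : ∑ W, sel (fun _ => r) W * badW g W ≤ 2 * ∑ S, g S * r ^ S.card := by
    rw [← sum_sel_gsum, mul_sum]
    refine sum_le_sum fun W _ => ?_
    calc sel (fun _ => r) W * badW g W ≤ sel (fun _ => r) W * (2 * gsum g W) :=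
          mul_le_mul_of_nonneg_left (badW_le hg0 W) (sel_const_nonneg hr0 hr1 W)
      _ = 2 * (sel (fun _ => r) W * gsum g W) := by ring
  have hl0 : (0 : ℝ) ≤ l := Nat.cast_nonneg l
  have hexpand : ∑ W, sel (fun _ => r) W * bW F l g r W =
      2 * l * ∑ W, sel (fun _ => r) W * ∑ S, g S * r ^ (S \ W).card +
        Real.exp (-(l : ℝ)) * ∑ W, sel (fun _ => r) W * ∑ T ∈ fam F l W, r ^ T.card +
        ∑ W, sel (fun _ => r) W * badW g W := by
    rw [mul_sum, mul_sum, ← sum_add_distrib, ← sum_add_distrib]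
    refine sum_congr rfl fun W _ => ?_
    unfold bW
    ring
  rw [hexpand]
  have h4 : 2 * (l : ℝ) * ∑ W, sel (fun _ => r) W * ∑ S, g S * r ^ (S \ W).card ≤
      2 * l * ∑ S, g S * (2 * r) ^ S.card :=
    mul_le_mul_of_nonneg_left hT1 (by positivity)
  linarith

/-- **Core rounding.** Let `F` be increasing with every member containing a member of size at most
`l`, and `g` a fractional cover.  If `2 * l * w(g, 2 r) ≤ 1/8` and `w(g, r) ≤ 1/8` then `F` has a
cover of cost at most `1/2` at `r`. -/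
theorem core_cover (F : Finset X → Prop) (hup : ∀ A B, A ⊆ B → F A → F B) (l : ℕ)
    (hl : ∀ A, F A → ∃ B, B ⊆ A ∧ F B ∧ B.card ≤ l) (g : Finset X → ℝ) (hg0 : ∀ S, 0 ≤ g S)
    (hcover : ∀ H, F H → 1 ≤ ∑ S ∈ H.powerset, g S) (r : ℝ) (hr0 : 0 ≤ r) (hr1 : r ≤ 1)
    (hE1 : 2 * (l : ℝ) * ∑ S, g S * (2 * r) ^ S.card ≤ 1 / 8)
    (hE0 : ∑ S, g S * r ^ S.card ≤ 1 / 8) :
    ∃ G : Finset (Finset X), (∀ H, F H → ∃ S ∈ G, S ⊆ H) ∧ ∑ S ∈ G, r ^ S.card ≤ 1 / 2 := by
  have hout := outer_bound (F := F) (l := l) hg0 hcover hl hr0 hr1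
  obtain ⟨W, hW⟩ := exists_le_of_weighted (fun W => sel (fun _ => r) W) (bW F l g r) (1 / 2)
    (fun W => sel_const_nonneg hr0 hr1 W) (sum_sel _) (by linarith)
  obtain ⟨R, hR⟩ := exists_le_of_weighted (fun R => sel (qW g l W) R)
    (cost r (famW F l g W) (badW g W)) (1 / 2)
    (fun R => sel_nonneg (qW_nonneg hg0 W) (qW_le_one g W) R) (sum_sel _)
    ((inner_bound hg0 hcover hr0 W).trans hW)
  have hnn1 : 0 ≤ ∑ A ∈ R, r ^ A.card := sum_nonneg fun A _ => by positivity
  have hgood : gsum g W < 1 / 2 := by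
    by_contra hbad
    have hb : badW g W = 1 := by
      unfold badW
      rw [if_neg hbad]
    have hf : famW F l g W = ∅ := by
      unfold famW
      rw [if_neg hbad]
    unfold cost at hR
    rw [hb, hf, sum_empty] at hR
    linarith
  have hb : badW g W = 0 := by
    unfold badW
    rw [if_pos hgood]
  have hf : famW F l g W = fam F l W := by
    unfold famW
    rw [if_pos hgood]
  refine ⟨R ∪ (fam F l W).filter (fun T => Disjoint R T.powerset), ?_, ?_⟩
  · intro H hH
    obtain ⟨T, hT, hTH⟩ := exists_mem_fam hup hl hH W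
    by_cases hd : Disjoint R T.powerset
    · exact ⟨T, mem_union_right _ (mem_filter.2 ⟨hT, hd⟩), hTH⟩
    · rw [Finset.not_disjoint_iff] at hd
      obtain ⟨A, hAR, hAT⟩ := hd
      exact ⟨A, mem_union_left _ hAR, (mem_powerset.1 hAT).trans hTH⟩
  · unfold cost at hR
    rw [hb, hf, add_zero, ← sum_filter] at hR
    have hu := sum_union_inter (s₁ := R)
      (s₂ := (fam F l W).filter (fun T => Disjoint R T.powerset)) (f := fun S => r ^ S.card)
    have hi : 0 ≤ ∑ S ∈ R ∩ (fam F l W).filter (fun T => Disjoint R T.powerset), r ^ S.card :=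
      sum_nonneg fun A _ => by positivity
    linarith

end Vale.Agent.Lib.P034.LargeSet
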