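import Vale.Agent.Lib.P034.LargeSets

/-!
# Large sets of a fractional cover cost only a constant

Consequences of `core_cover`: a fractional cover supported on sets of size at least `t`, with
`8 * l ≤ (K / 2) ^ t`, rounds with factor `K`; for a general fractional cover, this part can be
split off, which leaves only fractional covers on sets of size below `t`.
-/

namespace Vale.Agent.Lib.P034.LargeSet

open Finset
open Classical

set_option linter.unusedSectionVars false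

variable {X : Type*} [Fintype X] [DecidableEq X]

/-- Scaling the density of a fractional cover supported on sets of size at least `t`. -/
lemma weight_scale {g : Finset X → ℝ} (hg0 : ∀ S, 0 ≤ g S) {t : ℕ}
    (hsupp : ∀ S, g S ≠ 0 → t ≤ S.card) {p a : ℝ} (hp0 : 0 ≤ p) (ha0 : 0 ≤ a) (ha1 : a ≤ 1) :
    ∑ S, g S * (a * p) ^ S.card ≤ a ^ t * ∑ S, g S * p ^ S.card := by
  rw [mul_sum]
  refine sum_le_sum fun S _ => ?_
  by_cases hS : g S = 0
  · simp [hS]
  · have h1 : a ^ S.card ≤ a ^ t := pow_le_pow_of_le_one ha0 ha1 (hsupp S hS)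
    have h2 : 0 ≤ g S * p ^ S.card := mul_nonneg (hg0 S) (by positivity)
    calc g S * (a * p) ^ S.card = a ^ S.card * (g S * p ^ S.card) := by
          rw [mul_pow]; ring
      _ ≤ a ^ t * (g S * p ^ S.card) := mul_le_mul_of_nonneg_right h1 h2

/-- **Large-support rounding.** -/
theorem large_support_cover (F : Finset X → Prop) (hup : ∀ A B, A ⊆ B → F A → F B) (l : ℕ)
    (hl : ∀ A, F A → ∃ B, B ⊆ A ∧ F B ∧ B.card ≤ l) (g : Finset X → ℝ) (hg0 : ∀ S, 0 ≤ g S)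
    (hcover : ∀ H, F H → 1 ≤ ∑ S ∈ H.powerset, g S) (p : ℝ) (hp0 : 0 ≤ p) (hp1 : p ≤ 1)
    (hw : ∑ S, g S * p ^ S.card ≤ 1 / 2) (t : ℕ) (ht : 1 ≤ t)
    (hsupp : ∀ S, g S ≠ 0 → t ≤ S.card) (K : ℝ) (hK : 4 ≤ K)
    (hKt : 8 * (l : ℝ) ≤ (K / 2) ^ t) :
    ∃ G : Finset (Finset X), (∀ H, F H → ∃ S ∈ G, S ⊆ H) ∧ ∑ S ∈ G, (p / K) ^ S.card ≤ 1 / 2 := by
  have hKpos : 0 < K := by linarith
  have hr0 : 0 ≤ p / K := div_nonneg hp0 hKpos.le
  have hr1 : p / K ≤ 1 := (div_le_one hKpos).2 (by linarith)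
  refine core_cover F hup l hl g hg0 hcover (p / K) hr0 hr1 ?_ ?_
  · have hW0 : 0 ≤ ∑ S, g S * p ^ S.card := sum_nonneg fun S _ => mul_nonneg (hg0 S) (by positivity)
    have ha0 : 0 ≤ 2 / K := by positivity
    have ha1 : 2 / K ≤ 1 := (div_le_one hKpos).2 (by linarith)
    have h1 := weight_scale hg0 hsupp (a := 2 / K) hp0 ha0 ha1
    have heq : ∀ S : Finset X, g S * (2 * (p / K)) ^ S.card = g S * ((2 / K) * p) ^ S.card := by
      intro S
      congr 2
      field_simp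
    simp_rw [heq]
    have h2 : (2 / K) ^ t * (K / 2) ^ t = 1 := by
      rw [← mul_pow]
      have : 2 / K * (K / 2) = 1 := by field_simp
      rw [this, one_pow]
    have h3 : 0 ≤ (2 / K) ^ t := by positivity
    have hl0 : (0 : ℝ) ≤ l := Nat.cast_nonneg l
    have h4 : 8 * (l : ℝ) * (2 / K) ^ t ≤ 1 := by
      calc 8 * (l : ℝ) * (2 / K) ^ t ≤ (K / 2) ^ t * (2 / K) ^ t :=
            mul_le_mul_of_nonneg_right hKt h3
        _ = 1 := by rw [mul_comm, h2]
    have h5 : ∑ S, g S * ((2 / K) * p) ^ S.card ≤ (2 / K) ^ t * (1 / 2) :=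
      h1.trans (mul_le_mul_of_nonneg_left hw h3)
    calc 2 * (l : ℝ) * ∑ S, g S * ((2 / K) * p) ^ S.card
        ≤ 2 * (l : ℝ) * ((2 / K) ^ t * (1 / 2)) :=
          mul_le_mul_of_nonneg_left h5 (by positivity)
      _ = (8 * (l : ℝ) * (2 / K) ^ t) / 8 := by ring
      _ ≤ 1 / 8 := by linarith
  · have ha0 : 0 ≤ 1 / K := by positivity
    have ha1 : 1 / K ≤ 1 / 4 := by
      apply one_div_le_one_div_of_le (by norm_num) hK
    have h1 := weight_scale hg0 hsupp (a := 1 / K) hp0 ha0 (by linarith)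
    have heq : ∀ S : Finset X, g S * (p / K) ^ S.card = g S * ((1 / K) * p) ^ S.card := by
      intro S
      congr 2
      field_simp
    simp_rw [heq]
    have h3 : (1 / K) ^ t ≤ 1 / 4 := by
      calc (1 / K) ^ t ≤ (1 / K) ^ 1 := pow_le_pow_of_le_one ha0 (by linarith) ht
        _ ≤ 1 / 4 := by rw [pow_one]; exact ha1
    have h4 : 0 ≤ (1 / K) ^ t := by positivity
    calc ∑ S, g S * ((1 / K) * p) ^ S.card ≤ (1 / K) ^ t * ∑ S, g S * p ^ S.card := h1
      _ ≤ (1 / K) ^ t * (1 / 2) := mul_le_mul_of_nonneg_left hw h4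
      _ ≤ 1 / 4 * (1 / 2) := mul_le_mul_of_nonneg_right h3 (by norm_num)
      _ = 1 / 8 := by norm_num

/-- Sum over the subsets of `H` splits by the size threshold `t`. -/
lemma split_mass (g : Finset X → ℝ) (H : Finset X) (t : ℕ) :
    ∑ S ∈ H.powerset, g S = ∑ S ∈ H.powerset with t ≤ S.card, g S +
      ∑ S ∈ H.powerset with S.card < t, g S := by
  rw [← sum_filter_add_sum_filter_not H.powerset (fun S => t ≤ S.card)]
  congr 1
  refine sum_congr ?_ fun _ _ => rfl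
  ext S
  simp

/-- Mass below `t` is monotone in `H`. -/
lemma small_mass_mono {g : Finset X → ℝ} (hg0 : ∀ S, 0 ≤ g S) {H₀ H : Finset X} (h : H₀ ⊆ H)
    (t : ℕ) :
    ∑ S ∈ H₀.powerset with S.card < t, g S ≤ ∑ S ∈ H.powerset with S.card < t, g S := by
  apply sum_le_sum_of_subset_of_nonneg
  · exact filter_subset_filter _ (powerset_mono.2 h)
  · intro S _ _
    exact hg0 S

/-- **Splitting off the large sets.** -/
theorem split_large (F : Finset X → Prop) (l : ℕ)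
    (hl : ∀ A, F A → ∃ B, B ⊆ A ∧ F B ∧ B.card ≤ l) (g : Finset X → ℝ) (hg0 : ∀ S, 0 ≤ g S)
    (hcover : ∀ H, F H → 1 ≤ ∑ S ∈ H.powerset, g S) (p : ℝ) (hp0 : 0 ≤ p) (hp1 : p ≤ 1)
    (hw : ∑ S, g S * p ^ S.card ≤ 1 / 2) (t : ℕ) (ht : 1 ≤ t) (K : ℝ) (hK : 4 ≤ K)
    (hKt : 8 * (l : ℝ) ≤ (K / 2) ^ t) :
    ∃ G : Finset (Finset X),
      (∀ H, F H → (∃ S ∈ G, S ⊆ H) ∨ 1 / 2 ≤ ∑ S ∈ H.powerset with S.card < t, g S) ∧
      ∑ S ∈ G, (p / (2 * K)) ^ S.card ≤ 1 / 2 := by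
  -- the family of sets with a small witness whose mass on large sets is at least one half
  let F₁ : Finset X → Prop := fun H => ∃ H₀, H₀ ⊆ H ∧ F H₀ ∧ H₀.card ≤ l ∧
    1 / 2 ≤ ∑ S ∈ H₀.powerset with t ≤ S.card, g S
  let g₁ : Finset X → ℝ := fun S => if t ≤ S.card then 2 * g S else 0
  have hup₁ : ∀ A B, A ⊆ B → F₁ A → F₁ B := by
    rintro A B hAB ⟨H₀, h1, h2, h3, h4⟩
    exact ⟨H₀, h1.trans hAB, h2, h3, h4⟩
  have hl₁ : ∀ A, F₁ A → ∃ B, B ⊆ A ∧ F₁ B ∧ B.card ≤ l := by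
    rintro A ⟨H₀, h1, h2, h3, h4⟩
    exact ⟨H₀, h1, ⟨H₀, Subset.refl _, h2, h3, h4⟩, h3⟩
  have hg₁0 : ∀ S, 0 ≤ g₁ S := by
    intro S
    show 0 ≤ if t ≤ S.card then 2 * g S else 0
    split_ifs
    · have := hg0 S
      linarith
    · exact le_rfl
  have hcover₁ : ∀ H, F₁ H → 1 ≤ ∑ S ∈ H.powerset, g₁ S := by
    rintro H ⟨H₀, h1, _, _, h4⟩
    have h5 : ∑ S ∈ H₀.powerset, g₁ S ≤ ∑ S ∈ H.powerset, g₁ S := by
      apply sum_le_sum_of_subset_of_nonneg (powerset_mono.2 h1)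
      intro S _ _
      exact hg₁0 S
    have h6 : ∑ S ∈ H₀.powerset, g₁ S = 2 * ∑ S ∈ H₀.powerset with t ≤ S.card, g S := by
      rw [sum_filter, mul_sum]
      refine sum_congr rfl fun S _ => ?_
      show (if t ≤ S.card then 2 * g S else 0) = _
      split_ifs <;> simp
    linarith
  have hsupp₁ : ∀ S, g₁ S ≠ 0 → t ≤ S.card := by
    intro S hS
    by_contra h
    exact hS (if_neg h)
  have hw₁ : ∑ S, g₁ S * (p / 2) ^ S.card ≤ 1 / 2 := by
    refine le_trans (sum_le_sum fun S _ => ?_) hw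
    show (if t ≤ S.card then 2 * g S else 0) * (p / 2) ^ S.card ≤ g S * p ^ S.card
    have h0 : 0 ≤ g S * p ^ S.card := mul_nonneg (hg0 S) (by positivity)
    split_ifs with h
    · have hc : 1 ≤ S.card := ht.trans h
      have h2 : 2 * (1 / 2 : ℝ) ^ S.card ≤ 1 := by
        calc 2 * (1 / 2 : ℝ) ^ S.card ≤ 2 * (1 / 2 : ℝ) ^ 1 := by
              apply mul_le_mul_of_nonneg_left _ (by norm_num)
              exact pow_le_pow_of_le_one (by norm_num) (by norm_num) hc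
          _ = 1 := by norm_num
      calc 2 * g S * (p / 2) ^ S.card = (2 * (1 / 2 : ℝ) ^ S.card) * (g S * p ^ S.card) := by
            rw [div_eq_mul_one_div, mul_pow]; ring
        _ ≤ 1 * (g S * p ^ S.card) := mul_le_mul_of_nonneg_right h2 h0
        _ = g S * p ^ S.card := one_mul _
    · simpa using h0
  obtain ⟨G, hG1, hG2⟩ := large_support_cover F₁ hup₁ l hl₁ g₁ hg₁0 hcover₁ (p / 2)
    (by positivity) (by linarith) hw₁ t ht hsupp₁ K hK hKt
  refine ⟨G, ?_, ?_⟩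
  · intro H hH
    obtain ⟨H₀, h1, h2, h3⟩ := hl H hH
    have h4 := hcover H₀ h2
    rw [split_mass g H₀ t] at h4
    by_cases h5 : 1 / 2 ≤ ∑ S ∈ H₀.powerset with t ≤ S.card, g S
    · left
      exact hG1 H ⟨H₀, h1, h2, h3, h5⟩
    · right
      push Not at h5
      have := small_mass_mono hg0 h1 t
      linarith
  · have heq : p / (2 * K) = p / 2 / K := by
      rw [div_div]
    rw [heq]
    exact hG2

/-- The combination with an arbitrary rounding constant `L` for small sets, for `g ∅ = 0`. -/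
theorem combine_of_empty_zero (F : Finset X → Prop) (l : ℕ)
    (hl : ∀ A, F A → ∃ B, B ⊆ A ∧ F B ∧ B.card ≤ l) (g : Finset X → ℝ) (hg0 : ∀ S, 0 ≤ g S)
    (hempty : g ∅ = 0)
    (hcover : ∀ H, F H → 1 ≤ ∑ S ∈ H.powerset, g S) (p : ℝ) (hp0 : 0 ≤ p) (hp1 : p ≤ 1)
    (hw : ∑ S, g S * p ^ S.card ≤ 1 / 2) (t : ℕ) (ht : 1 ≤ t) (K : ℝ) (hK : 4 ≤ K)
    (hKt : 8 * (l : ℝ) ≤ (K / 2) ^ t) (L : ℝ) (hL : 0 < L)
    (hround : ∀ (F₂ : Finset X → Prop) (g₂ : Finset X → ℝ) (p₂ : ℝ),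
      (∀ A B, A ⊆ B → F₂ A → F₂ B) → (∀ S, 0 ≤ g₂ S) →
      (∀ H, F₂ H → 1 ≤ ∑ S ∈ H.powerset, g₂ S) → (∀ S, g₂ S ≠ 0 → S.card < t) →
      0 ≤ p₂ → p₂ ≤ 1 → ∑ S, g₂ S * p₂ ^ S.card ≤ 1 / 2 →
      ∃ G : Finset (Finset X), (∀ H, F₂ H → ∃ S ∈ G, S ⊆ H) ∧ ∑ S ∈ G, (p₂ / L) ^ S.card ≤ 1 / 2) :
    ∃ G : Finset (Finset X), (∀ H, F H → ∃ S ∈ G, S ⊆ H) ∧
      ∑ S ∈ G, (p / (4 * max K L)) ^ S.card ≤ 1 / 2 := by
  obtain ⟨G₁, hG₁, hc₁⟩ := split_large F l hl g hg0 hcover p hp0 hp1 hw t ht K hK hKt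
  let F₂ : Finset X → Prop := fun H => ∃ H₂, H₂ ⊆ H ∧ F H₂ ∧ ∀ S ∈ G₁, ¬ S ⊆ H₂
  let g₂ : Finset X → ℝ := fun S => if S.card < t then 2 * g S else 0
  have hup₂ : ∀ A B, A ⊆ B → F₂ A → F₂ B := by
    rintro A B hAB ⟨H₂, h1, h2, h3⟩
    exact ⟨H₂, h1.trans hAB, h2, h3⟩
  have hg₂0 : ∀ S, 0 ≤ g₂ S := by
    intro S
    show 0 ≤ if S.card < t then 2 * g S else 0
    split_ifs
    · have := hg0 S
      linarith
    · exact le_rfl
  have hcover₂ : ∀ H, F₂ H → 1 ≤ ∑ S ∈ H.powerset, g₂ S := by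
    rintro H ⟨H₂, h1, h2, h3⟩
    have h5 : ∑ S ∈ H₂.powerset, g₂ S ≤ ∑ S ∈ H.powerset, g₂ S := by
      apply sum_le_sum_of_subset_of_nonneg (powerset_mono.2 h1)
      intro S _ _
      exact hg₂0 S
    have h6 : ∑ S ∈ H₂.powerset, g₂ S = 2 * ∑ S ∈ H₂.powerset with S.card < t, g S := by
      rw [sum_filter, mul_sum]
      refine sum_congr rfl fun S _ => ?_
      show (if S.card < t then 2 * g S else 0) = _
      split_ifs <;> simp
    rcases hG₁ H₂ h2 with ⟨S, hS, hSH⟩ | h7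
    · exact absurd hSH (h3 S hS)
    · linarith
  have hsupp₂ : ∀ S, g₂ S ≠ 0 → S.card < t := by
    intro S hS
    by_contra h
    exact hS (if_neg h)
  have hw₂ : ∑ S, g₂ S * (p / 2) ^ S.card ≤ 1 / 2 := by
    refine le_trans (sum_le_sum fun S _ => ?_) hw
    show (if S.card < t then 2 * g S else 0) * (p / 2) ^ S.card ≤ g S * p ^ S.card
    have h0 : 0 ≤ g S * p ^ S.card := mul_nonneg (hg0 S) (by positivity)
    split_ifs with h
    · by_cases hS : S = ∅
      · rw [hS, hempty]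
        simp
      · have hc : 1 ≤ S.card := card_pos.2 (nonempty_iff_ne_empty.2 hS)
        have h2 : 2 * (1 / 2 : ℝ) ^ S.card ≤ 1 := by
          calc 2 * (1 / 2 : ℝ) ^ S.card ≤ 2 * (1 / 2 : ℝ) ^ 1 := by
                apply mul_le_mul_of_nonneg_left _ (by norm_num)
                exact pow_le_pow_of_le_one (by norm_num) (by norm_num) hc
            _ = 1 := by norm_num
        calc 2 * g S * (p / 2) ^ S.card = (2 * (1 / 2 : ℝ) ^ S.card) * (g S * p ^ S.card) := by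
              rw [div_eq_mul_one_div, mul_pow]; ring
          _ ≤ 1 * (g S * p ^ S.card) := mul_le_mul_of_nonneg_right h2 h0
          _ = g S * p ^ S.card := one_mul _
    · simpa using h0
  obtain ⟨G₂, hG₂, hc₂⟩ := hround F₂ g₂ (p / 2) hup₂ hg₂0 hcover₂ hsupp₂ (by positivity)
    (by linarith) hw₂
  refine ⟨G₁ ∪ G₂, ?_, ?_⟩
  · intro H hH
    by_cases hh : ∃ S ∈ G₁, S ⊆ H
    · obtain ⟨S, hS, hSH⟩ := hh
      exact ⟨S, mem_union_left _ hS, hSH⟩
    · push Not at hh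
      obtain ⟨S, hS, hSH⟩ := hG₂ H ⟨H, Subset.refl _, hH, hh⟩
      exact ⟨S, mem_union_right _ hS, hSH⟩
  · have hKpos : 0 < K := by linarith
    have hMK : K ≤ max K L := le_max_left _ _
    have hML : L ≤ max K L := le_max_right _ _
    have hMpos : 0 < max K L := lt_of_lt_of_le hKpos hMK
    -- general halving for a cover of cost at most one half at `s`
    have halve : ∀ (G : Finset (Finset X)) (s : ℝ), 0 ≤ s →
        p / (4 * max K L) ≤ s / 2 → ∑ S ∈ G, s ^ S.card ≤ 1 / 2 →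
        ∑ S ∈ G, (p / (4 * max K L)) ^ S.card ≤ 1 / 4 := by
      intro G s hs hle hcost
      have hne : ∀ S ∈ G, S ≠ ∅ := by
        intro S hS hSe
        have h1 : s ^ S.card ≤ ∑ S ∈ G, s ^ S.card :=
          single_le_sum (f := fun S : Finset X => s ^ S.card) (fun _ _ => by positivity) hS
        rw [hSe] at h1
        simp only [card_empty, pow_zero] at h1
        linarith
      calc ∑ S ∈ G, (p / (4 * max K L)) ^ S.card ≤ ∑ S ∈ G, (1 / 2) * s ^ S.card := by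
            refine sum_le_sum fun S hS => ?_
            have hc : 1 ≤ S.card := card_pos.2 (nonempty_iff_ne_empty.2 (hne S hS))
            have h0 : 0 ≤ p / (4 * max K L) := by positivity
            calc (p / (4 * max K L)) ^ S.card ≤ (s / 2) ^ S.card := pow_le_pow_left₀ h0 hle _
              _ = (1 / 2 : ℝ) ^ S.card * s ^ S.card := by
                  rw [div_eq_mul_one_div, mul_pow]; ring
              _ ≤ (1 / 2) * s ^ S.card := by
                  apply mul_le_mul_of_nonneg_right _ (by positivity)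
                  calc (1 / 2 : ℝ) ^ S.card ≤ (1 / 2 : ℝ) ^ 1 :=
                        pow_le_pow_of_le_one (by norm_num) (by norm_num) hc
                    _ = 1 / 2 := by norm_num
        _ = (1 / 2) * ∑ S ∈ G, s ^ S.card := by rw [mul_sum]
        _ ≤ 1 / 4 := by linarith
    have h1 := halve G₁ (p / (2 * K)) (by positivity) (by
      rw [div_div]
      apply div_le_div_of_nonneg_left hp0 (by positivity)
      nlinarith) hc₁
    have h2 := halve G₂ (p / 2 / L) (by positivity) (by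
      rw [div_div, div_div]
      apply div_le_div_of_nonneg_left hp0 (by positivity)
      nlinarith) hc₂
    have hu := sum_union_inter (s₁ := G₁) (s₂ := G₂)
      (f := fun S => (p / (4 * max K L)) ^ S.card)
    have hi : 0 ≤ ∑ S ∈ G₁ ∩ G₂, (p / (4 * max K L)) ^ S.card :=
      sum_nonneg fun S _ => by positivity
    linarith

/-- The combination with an arbitrary rounding constant `L` for small sets. -/
theorem combine (F : Finset X → Prop) (l : ℕ)
    (hl : ∀ A, F A → ∃ B, B ⊆ A ∧ F B ∧ B.card ≤ l) (g : Finset X → ℝ) (hg0 : ∀ S, 0 ≤ g S)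
    (hcover : ∀ H, F H → 1 ≤ ∑ S ∈ H.powerset, g S) (p : ℝ) (hp0 : 0 ≤ p) (hp1 : p ≤ 1)
    (hw : ∑ S, g S * p ^ S.card ≤ 1 / 2) (t : ℕ) (ht : 1 ≤ t) (K : ℝ) (hK : 4 ≤ K)
    (hKt : 8 * (l : ℝ) ≤ (K / 2) ^ t) (L : ℝ) (hL : 0 < L)
    (hround : ∀ (F₂ : Finset X → Prop) (g₂ : Finset X → ℝ) (p₂ : ℝ),
      (∀ A B, A ⊆ B → F₂ A → F₂ B) → (∀ S, 0 ≤ g₂ S) →
      (∀ H, F₂ H → 1 ≤ ∑ S ∈ H.powerset, g₂ S) → (∀ S, g₂ S ≠ 0 → S.card < t) →
      0 ≤ p₂ → p₂ ≤ 1 → ∑ S, g₂ S * p₂ ^ S.card ≤ 1 / 2 →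
      ∃ G : Finset (Finset X), (∀ H, F₂ H → ∃ S ∈ G, S ⊆ H) ∧ ∑ S ∈ G, (p₂ / L) ^ S.card ≤ 1 / 2) :
    ∃ G : Finset (Finset X), (∀ H, F H → ∃ S ∈ G, S ⊆ H) ∧
      ∑ S ∈ G, (p / (4 * max K L)) ^ S.card ≤ 1 / 2 := by
  have hWnn : ∀ S : Finset X, 0 ≤ g S * p ^ S.card := fun S => mul_nonneg (hg0 S) (by positivity)
  have ha : g ∅ ≤ 1 / 2 := by
    have h1 : g ∅ * p ^ (∅ : Finset X).card ≤ ∑ S, g S * p ^ S.card :=
      single_le_sum (f := fun S : Finset X => g S * p ^ S.card) (fun S _ => hWnn S) (mem_univ _)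
    simp only [card_empty, pow_zero, mul_one] at h1
    linarith
  have hapos : 0 < 1 - g ∅ := by linarith
  let g' : Finset X → ℝ := fun S => if S = ∅ then 0 else g S / (1 - g ∅)
  have hg'0 : ∀ S, 0 ≤ g' S := by
    intro S
    show 0 ≤ if S = ∅ then 0 else g S / (1 - g ∅)
    split_ifs
    · exact le_rfl
    · exact div_nonneg (hg0 S) hapos.le
  have hg'e : g' ∅ = 0 := if_pos rfl
  have hcover' : ∀ H, F H → 1 ≤ ∑ S ∈ H.powerset, g' S := by
    intro H hH
    have h1 := hcover H hH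
    have h2 : (1 - g ∅) * ∑ S ∈ H.powerset, g' S = ∑ S ∈ H.powerset, g S - g ∅ := by
      have h3 : ∀ S ∈ H.powerset, (1 - g ∅) * g' S = g S - if S = ∅ then g ∅ else 0 := by
        intro S _
        show (1 - g ∅) * (if S = ∅ then 0 else g S / (1 - g ∅)) = _
        split_ifs with hS
        · rw [hS]; ring
        · field_simp; ring
      rw [mul_sum, sum_congr rfl h3, sum_sub_distrib, Finset.sum_ite_eq' H.powerset ∅]
      simp
    have h4 : (1 - g ∅) * 1 ≤ (1 - g ∅) * ∑ S ∈ H.powerset, g' S := by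
      rw [h2]; linarith
    exact le_of_mul_le_mul_left h4 hapos
  have hw' : ∑ S, g' S * p ^ S.card ≤ 1 / 2 := by
    have h2 : (1 - g ∅) * ∑ S, g' S * p ^ S.card = ∑ S, g S * p ^ S.card - g ∅ := by
      have h3 : ∀ S ∈ (univ : Finset (Finset X)), (1 - g ∅) * (g' S * p ^ S.card) =
          g S * p ^ S.card - if S = ∅ then g ∅ else 0 := by
        intro S _
        show (1 - g ∅) * ((if S = ∅ then 0 else g S / (1 - g ∅)) * p ^ S.card) = _
        split_ifs with hS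
        · rw [hS]; simp
        · field_simp; ring
      rw [mul_sum, sum_congr rfl h3, sum_sub_distrib, Finset.sum_ite_eq' univ ∅]
      simp
    have h4 : (1 - g ∅) * ∑ S, g' S * p ^ S.card ≤ (1 - g ∅) * (1 / 2) := by
      rw [h2]
      have := hg0 ∅
      linarith
    exact le_of_mul_le_mul_left h4 hapos
  exact combine_of_empty_zero F l hl g' hg'0 hg'e hcover' p hp0 hp1 hw' t ht K hK hKt L hL hround

end Vale.Agent.Lib.P034.LargeSet
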