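import Mathlib

/-!
# Independent selection on a finite type

Elementary facts on the product weights `sel q R = ∏_{a ∈ R} q a * ∏_{a ∉ R} (1 - q a)`.
-/

namespace Vale.Agent.Lib.P034.LargeSet

open Finset

section Selection

variable {α : Type*} [Fintype α] [DecidableEq α]

/-- Master identity for products over a subset and its complement. -/
lemma sum_prod_compl (f h : α → ℝ) :
    ∑ R : Finset α, (∏ a ∈ R, f a) * ∏ a ∈ Rᶜ, h a = ∏ a, (f a + h a) := by
  rw [Finset.prod_add, Finset.powerset_univ]
  refine Finset.sum_congr rfl fun R _ => ?_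
  rw [Finset.compl_eq_univ_sdiff]

/-- The weight of `R` when each element `a` is selected independently with probability `q a`. -/
noncomputable def sel (q : α → ℝ) (R : Finset α) : ℝ :=
  (∏ a ∈ R, q a) * ∏ a ∈ Rᶜ, (1 - q a)

lemma sel_nonneg {q : α → ℝ} (h0 : ∀ a, 0 ≤ q a) (h1 : ∀ a, q a ≤ 1) (R : Finset α) :
    0 ≤ sel q R :=
  mul_nonneg (prod_nonneg fun a _ => h0 a) (prod_nonneg fun a _ => sub_nonneg.2 (h1 a))

lemma sum_sel (q : α → ℝ) : ∑ R, sel q R = 1 := by
  unfold sel
  rw [sum_prod_compl]
  simp

/-- The probability that the selected set misses `B`. -/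
lemma sum_sel_disjoint (q : α → ℝ) (B : Finset α) :
    ∑ R, (if Disjoint R B then sel q R else 0) = ∏ a ∈ B, (1 - q a) := by
  have key : ∀ R : Finset α, (if Disjoint R B then sel q R else 0) =
      (∏ a ∈ R, (if a ∈ B then 0 else q a)) * ∏ a ∈ Rᶜ, (1 - q a) := by
    intro R
    unfold sel
    split_ifs with h
    · congr 1
      refine prod_congr rfl fun a ha => ?_
      rw [if_neg (Finset.disjoint_left.1 h ha)]
    · rw [Finset.not_disjoint_iff] at h
      obtain ⟨a, haR, haB⟩ := h
      rw [prod_eq_zero haR (by simp [haB]), zero_mul]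
  simp_rw [key]
  rw [sum_prod_compl]
  have key2 : ∀ a, (if a ∈ B then 0 else q a) + (1 - q a) = if a ∈ B then 1 - q a else 1 := by
    intro a
    split_ifs <;> ring
  simp_rw [key2]
  rw [Finset.prod_ite_mem]
  simp

/-- The probability that `a` is selected. -/
lemma sum_sel_mem (q : α → ℝ) (a : α) :
    ∑ R, (if a ∈ R then sel q R else 0) = q a := by
  have h1 := sum_sel_disjoint q {a}
  have h2 := sum_sel q
  simp only [prod_singleton] at h1
  have h3 : ∀ R : Finset α, (if a ∈ R then sel q R else 0) =
      sel q R - (if Disjoint R {a} then sel q R else 0) := by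
    intro R
    by_cases h : a ∈ R
    · have : ¬ Disjoint R {a} := by
        simpa using h
      rw [if_pos h, if_neg this]; ring
    · have : Disjoint R {a} := by
        simpa using h
      rw [if_neg h, if_pos this]; ring
  simp_rw [h3]
  rw [sum_sub_distrib, h1, h2]
  ring

/-- Expectation of a sum over the selected set. -/
lemma sum_sel_sum (q c : α → ℝ) :
    ∑ R, sel q R * ∑ a ∈ R, c a = ∑ a, q a * c a := by
  calc ∑ R, sel q R * ∑ a ∈ R, c a
      = ∑ R, ∑ a, (if a ∈ R then sel q R else 0) * c a := by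
        refine sum_congr rfl fun R _ => ?_
        rw [mul_sum]
        have : ∀ a, (if a ∈ R then sel q R else 0) * c a =
            if a ∈ R then sel q R * c a else 0 := by
          intro a; split_ifs <;> simp
        simp_rw [this]
        rw [Finset.sum_ite_mem]
        simp
    _ = ∑ a, ∑ R, (if a ∈ R then sel q R else 0) * c a := sum_comm
    _ = ∑ a, q a * c a := by
        refine sum_congr rfl fun a _ => ?_
        rw [← sum_mul, sum_sel_mem]

/-- The probability that the selected set contains `S`. -/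
lemma sum_sel_superset (q : α → ℝ) (S : Finset α) :
    ∑ Z, (if S ⊆ Z then sel q Z else 0) = ∏ a ∈ S, q a := by
  have key : ∀ Z : Finset α, (if S ⊆ Z then sel q Z else 0) =
      (∏ a ∈ Z, q a) * ∏ a ∈ Zᶜ, (if a ∈ S then 0 else 1 - q a) := by
    intro Z
    unfold sel
    split_ifs with h
    · congr 1
      refine prod_congr rfl fun a ha => ?_
      rw [if_neg]
      intro haS
      exact (mem_compl.1 ha) (h haS)
    · rw [Finset.not_subset] at h
      obtain ⟨a, haS, haZ⟩ := h
      rw [prod_eq_zero (mem_compl.2 haZ) (by simp [haS]), mul_zero]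
  simp_rw [key]
  rw [sum_prod_compl]
  have key2 : ∀ a, q a + (if a ∈ S then 0 else 1 - q a) = if a ∈ S then q a else 1 := by
    intro a
    split_ifs <;> ring
  simp_rw [key2]
  rw [Finset.prod_ite_mem]
  simp

/-- Expectation of `r ^ |S \ W|` for the `r`-random set `W`. -/
lemma sum_sel_pow_sdiff {r : ℝ} (hr0 : 0 ≤ r) (hr1 : r ≤ 1) (S : Finset α) :
    ∑ W, sel (fun _ => r) W * r ^ (S \ W).card ≤ (2 * r) ^ S.card := by
  have key : ∀ W : Finset α, sel (fun _ => r) W * r ^ (S \ W).card =
      (∏ _a ∈ W, r) * ∏ a ∈ Wᶜ, ((1 - r) * (if a ∈ S then r else 1)) := by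
    intro W
    unfold sel
    rw [mul_assoc]
    congr 1
    rw [prod_mul_distrib]
    congr 1
    rw [Finset.prod_ite_mem, prod_const]
    congr 2
    ext x
    simp [and_comm]
  simp_rw [key]
  rw [sum_prod_compl]
  have key2 : ∀ a, r + (1 - r) * (if a ∈ S then r else 1) =
      if a ∈ S then r + (1 - r) * r else 1 := by
    intro a
    split_ifs <;> ring
  simp_rw [key2]
  rw [Finset.prod_ite_mem]
  simp only [univ_inter, prod_const]
  apply pow_le_pow_left₀
  · nlinarith
  · nlinarith

/-- Averaging: a nonnegative weighting of total mass `1` with mean at most `c` has a point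
of value at most `c`. -/
lemma exists_le_of_weighted {ι : Type*} [Fintype ι] (w C : ι → ℝ) (c : ℝ)
    (hw0 : ∀ i, 0 ≤ w i) (hw1 : ∑ i, w i = 1) (h : ∑ i, w i * C i ≤ c) : ∃ i, C i ≤ c := by
  by_contra hcon
  push Not at hcon
  have hlt : ∑ i, w i * c < ∑ i, w i * C i := by
    apply sum_lt_sum
    · intro i _
      exact mul_le_mul_of_nonneg_left (hcon i).le (hw0 i)
    · obtain ⟨i, hi⟩ : ∃ i, w i ≠ 0 := by
        by_contra hne
        push Not at hne
        have : ∑ i, w i = 0 := sum_eq_zero fun i _ => hne i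
        linarith
      exact ⟨i, mem_univ _, mul_lt_mul_of_pos_left (hcon i) (lt_of_le_of_ne (hw0 i) hi.symm)⟩
  rw [← sum_mul, hw1, one_mul] at hlt
  linarith

end Selection

end Vale.Agent.Lib.P034.LargeSet
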